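import Vale.Agent.P061.Part

/-! Families of spheres in an integer valued pseudometric. -/

namespace Vale.Agent.P061

open Finset

variable {V : Type*} [DecidableEq V]

/-- integer valued pseudometrics -/
structure IsPM (d : V → V → ℕ) : Prop where
  refl : ∀ x, d x x = 0
  symm : ∀ x y, d x y = d y x
  tri : ∀ x y z, d x z ≤ d x y + d y z

/-- centre, radius of the ball, radius of the sphere -/
abbrev Item (V : Type*) := (V × ℕ) × ℕ

variable (d : V → V → ℕ)

def Ins (i : Item V) (x : V) : Prop := d i.1.1 x ≤ i.2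

def Splits (i : Item V) (U : Finset V) : Prop := (∃ x ∈ U, Ins d i x) ∧ ∃ y ∈ U, ¬Ins d i y

def Near (i : Item V) (x : V) (w : ℕ) : Prop := i.2 ≤ d i.1.1 x + w ∧ d i.1.1 x ≤ i.2 + w

open Classical in
noncomputable def sepa (T : Finset (Item V)) (x y : V) : Finset (Item V) :=
  T.filter fun i => Ins d i x ≠ Ins d i y

theorem mem_sepa {T : Finset (Item V)} {x y : V} {i : Item V} :
    i ∈ sepa d T x y ↔ i ∈ T ∧ ((d i.1.1 x ≤ i.2 ∧ i.2 < d i.1.1 y) ∨
      (d i.1.1 y ≤ i.2 ∧ i.2 < d i.1.1 x)) := by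
  simp only [sepa, mem_filter, Ins, ne_eq, eq_iff_iff]
  refine and_congr_right fun _ => ?_
  omega

structure Inv (T : Finset (Item V)) (ρ : ℕ) : Prop where
  rad : ∀ i ∈ T, i.2 < i.1.2 ∧ ρ ≤ i.1.2
  lam : ∀ i ∈ T, ∀ j ∈ T, i.1 ≠ j.1 → 2 * i.1.2 + 2 * j.1.2 ≤ d i.1.1 j.1.1 ∨
    ¬Near d i j.1.1 (2 * j.1.2) ∨ ¬Near d j i.1.1 (2 * i.1.2)
  pack : ∀ x y, ρ < 2 * d x y → (sepa d T x y).card + ρ ≤ 7 * d x y

variable {d}

theorem Inv.subset {T T' : Finset (Item V)} {ρ : ℕ} (h : Inv d T ρ) (hT : T' ⊆ T) :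
    Inv d T' ρ :=
  ⟨fun i hi => h.rad i (hT hi), fun i hi j hj => h.lam i (hT hi) j (hT hj), fun x y hxy =>
    le_trans (Nat.add_le_add_right (card_le_card fun i hi => by
      rw [mem_sepa] at hi ⊢; exact ⟨hT hi.1, hi.2⟩) _) (h.pack x y hxy)⟩

theorem Inv.uniq (hd : IsPM d) {T : Finset (Item V)} {ρ w : ℕ} (h : Inv d T ρ) (hw : 2 * w ≤ ρ)
    {i j : Item V} (hi : i ∈ T) (hj : j ∈ T) {x : V} (h1 : Near d i x w) (h2 : Near d j x w) :
    i.1 = j.1 := by
  by_contra hne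
  have a := h.rad i hi
  have b := h.rad j hj
  have t1 := hd.tri i.1.1 x j.1.1
  have t2 := hd.tri i.1.1 j.1.1 x
  have t3 := hd.tri j.1.1 i.1.1 x
  have s1 := hd.symm x j.1.1
  have s2 := hd.symm i.1.1 j.1.1
  have := h.lam i hi j hj hne
  simp only [Near] at *
  omega

theorem Inv.uniq' (hd : IsPM d) {T : Finset (Item V)} {ρ : ℕ} (h : Inv d T ρ)
    {i j : Item V} (hi : i ∈ T) (hj : j ∈ T) {U : Finset V} (h1 : Splits d i U)
    (h2 : Splits d j U) (h3 : ∀ y ∈ U, d i.1.1 y < i.1.2) (h4 : ∀ y ∈ U, d j.1.1 y < j.1.2) :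
    i.1 = j.1 := by
  by_contra hne
  obtain ⟨⟨x, hx, hx'⟩, y, hy, hy'⟩ := h1
  obtain ⟨⟨z, hz, hz'⟩, w, hw, hw'⟩ := h2
  have t1 := hd.tri i.1.1 x j.1.1
  have t2 := hd.tri i.1.1 j.1.1 y
  have t3 := hd.tri j.1.1 z i.1.1
  have t4 := hd.tri j.1.1 i.1.1 w
  have s1 := hd.symm x j.1.1
  have s2 := hd.symm i.1.1 j.1.1
  have s3 := hd.symm z i.1.1
  have := h.lam i hi j hj hne
  have := h3 x hx
  have := h3 z hz
  have := h3 w hw
  have := h4 x hx
  have := h4 y hy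
  simp only [Near, Ins] at *
  omega

theorem card_items {A : Finset (Item V)} {k : ℕ} (h1 : ∀ i ∈ A, ∀ j ∈ A, i.1 = j.1)
    (h2 : ∀ j ∈ A, ∃ a, ∀ i ∈ A, i.1 = j.1 → a ≤ i.2 ∧ i.2 < a + k) : A.card ≤ k := by
  rcases A.eq_empty_or_nonempty with rfl | ⟨j, hj⟩
  · simp
  obtain ⟨a, ha⟩ := h2 j hj
  have := card_le_card_of_injOn (s := A) (t := Ico a (a + k)) (fun i => i.2)
    (fun i hi => by simpa using ha i hi (h1 i hi j hj))
    (fun i hi i' hi' h => Prod.ext (h1 i hi i' hi') h)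
  simpa using this

theorem Inv.sepa_small (hd : IsPM d) {T : Finset (Item V)} {ρ : ℕ} (h : Inv d T ρ) {x y : V}
    (hxy : 2 * d x y ≤ ρ) : (sepa d T x y).card ≤ d x y := by
  have hn : ∀ i ∈ sepa d T x y, Near d i x (d x y) := fun i hi => by
    have := ((mem_sepa d).1 hi).2
    have t1 := hd.tri i.1.1 x y
    have t2 := hd.tri i.1.1 y x
    have := hd.symm x y
    simp only [Near]; omega
  refine card_items (fun i hi j hj => h.uniq hd hxy ((mem_sepa d).1 hi).1 ((mem_sepa d).1 hj).1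
    (hn i hi) (hn j hj)) fun j _ => ⟨min (d j.1.1 x) (d j.1.1 y), fun i hi hij => ?_⟩
  have := ((mem_sepa d).1 hi).2
  have t1 := hd.tri i.1.1 x y
  have t2 := hd.tri i.1.1 y x
  have := hd.symm x y
  rw [← hij]
  omega

theorem Inv.sepa_le (hd : IsPM d) {T : Finset (Item V)} {ρ : ℕ} (h : Inv d T ρ) (x y : V) :
    (sepa d T x y).card ≤ 7 * d x y := by
  by_cases hxy : 2 * d x y ≤ ρ
  · have := h.sepa_small hd hxy; omega
  · have := h.pack x y (by omega); omega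

theorem exists_net (hd : IsPM d) (A : Finset V) {r : ℕ} (hr : 0 < r) :
    ∃ Y ⊆ A, (∀ x ∈ Y, ∀ y ∈ Y, x ≠ y → r ≤ d x y) ∧ ∀ a ∈ A, ∃ y ∈ Y, d a y < r := by
  obtain ⟨Y, hY, hmax⟩ := exists_max_image
    (A.powerset.filter fun Y => ∀ x ∈ Y, ∀ y ∈ Y, x ≠ y → r ≤ d x y) card ⟨∅, by simp⟩
  simp only [mem_filter, mem_powerset] at hY hmax
  refine ⟨Y, hY.1, hY.2, fun a ha => ?_⟩
  by_contra hcon
  push_neg at hcon
  have haY : a ∉ Y := fun h => by have := hcon a h; rw [hd.refl] at this; omega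
  have := hmax (insert a Y) (by
    refine ⟨insert_subset ha hY.1, fun x hx y hy hxy => ?_⟩
    rw [mem_insert] at hx hy
    rcases hx with rfl | hx <;> rcases hy with rfl | hy
    · exact absurd rfl hxy
    · exact hcon y hy
    · rw [hd.symm]; exact hcon x hx
    · exact hY.2 x hx y hy hxy)
  rw [card_insert_of_notMem haY] at this
  omega

theorem Inv.add (hd : IsPM d) {T : Finset (Item V)} {ρ r : ℕ} (h : Inv d T ρ) (hr : 3 * r ≤ ρ)
    {C : Finset V} (hC : ∀ x ∈ C, ∀ y ∈ C, x ≠ y → 4 * r ≤ d x y)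
    (hf : ∀ c ∈ C, ∀ i ∈ T, ¬Near d i c (2 * r)) :
    Inv d (T ∪ (C ×ˢ {r}) ×ˢ range r) r := by
  have hm : ∀ i ∈ (C ×ˢ {r}) ×ˢ range r, i.1.1 ∈ C ∧ i.1.2 = r ∧ i.2 < r := fun i hi => by
    simpa only [mem_product, mem_singleton, mem_range, and_assoc] using hi
  refine ⟨fun i hi => ?_, fun i hi j hj hij => ?_, fun x y hxy => ?_⟩
  · rcases mem_union.1 hi with hi | hi
    · have := h.rad i hi; omega
    · have := hm i hi; omega
  · rcases mem_union.1 hi with hi | hi <;> rcases mem_union.1 hj with hj | hj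
    · exact h.lam i hi j hj hij
    · obtain ⟨a, b, -⟩ := hm j hj
      exact Or.inr (Or.inl (b ▸ hf _ a i hi))
    · obtain ⟨a, b, -⟩ := hm i hi
      exact Or.inr (Or.inr (b ▸ hf _ a j hj))
    · obtain ⟨a, b, -⟩ := hm i hi
      obtain ⟨a', b', -⟩ := hm j hj
      have := hC _ a _ a' fun h => hij (Prod.ext h (b.trans b'.symm))
      left; omega
  · classical
    have key : ∀ x, (((C ×ˢ {r}) ×ˢ range r).filter fun i => d i.1.1 x ≤ i.2).card ≤ r := by
      intro x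
      refine card_items (fun i hi j hj => ?_) fun j _ => ⟨0, fun i hi _ => ?_⟩
      · rw [mem_filter] at hi hj
        obtain ⟨a, b, c⟩ := hm i hi.1
        obtain ⟨a', b', c'⟩ := hm j hj.1
        refine Prod.ext ?_ (b.trans b'.symm)
        by_contra hne
        have := hC _ a _ a' hne
        have := hd.tri i.1.1 x j.1.1
        have := hd.symm x j.1.1
        omega
      · have := hm i (mem_filter.1 hi).1; omega
    have h1 : (sepa d (T ∪ (C ×ˢ {r}) ×ˢ range r) x y).card ≤ (sepa d T x y).card + (r + r) := by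
      refine le_trans ?_ (Nat.add_le_add_left (Nat.add_le_add (key x) (key y)) _)
      refine le_trans ?_ (Nat.add_le_add_left (card_union_le _ _) _)
      refine le_trans (card_le_card fun i hi => ?_) (card_union_le _ _)
      simp only [mem_sepa, mem_union, mem_filter] at hi ⊢
      tauto
    by_cases h2 : 2 * d x y ≤ ρ
    · have := h.sepa_small hd h2; omega
    · have := h.pack x y (by omega); omega

end Vale.Agent.P061
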