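import Vale.Agent.P061.Stable

/-! The barrier argument and the selection of a good outcome. -/

namespace Vale.Agent.P061

open Finset

variable {ι : Type*} [DecidableEq ι]

theorem MA.tav_eq {g : (ι → ℝ) → ℝ} (hg : MA g) (p q : ι) (y : ι → ℝ) :
    Tav p q g y = g y - (Vale.Agent.P061.dd g p y + Vale.Agent.P061.dd g q y) / 2 := by
  simp only [Tav, Vale.Agent.P061.dd]
  rw [hg p, hg q]
  ring

theorem MA.quad {g : (ι → ℝ) → ℝ} (hg : MA g) (p q : ι) (y : ι → ℝ) (t : ℝ) :
    g (y + Pi.single p t + Pi.single q t) =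
      g y + (Vale.Agent.P061.dd g p y + Vale.Agent.P061.dd g q y) * t +
        (Vale.Agent.P061.dd g p (y + Pi.single q 1) - Vale.Agent.P061.dd g p y) * t ^ 2 := by
  rw [hg.two]
  simp only [Vale.Agent.P061.dd, add_right_comm y (Pi.single q 1)]
  ring

theorem MA.quad' {g : (ι → ℝ) → ℝ} (hg : MA g) (p q : ι) (y : ι → ℝ) (t : ℝ) :
    Vale.Agent.P061.dd g p (y + Pi.single p t + Pi.single q t) +
      Vale.Agent.P061.dd g q (y + Pi.single p t + Pi.single q t) =
      (Vale.Agent.P061.dd g p y + Vale.Agent.P061.dd g q y) +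
        2 * (Vale.Agent.P061.dd g p (y + Pi.single q 1) - Vale.Agent.P061.dd g p y) * t := by
  rw [hg.dd_self, add_right_comm y, hg.dd_self, hg.dd p q y t, hg.dd q p y t]
  simp only [Vale.Agent.P061.dd, add_right_comm y (Pi.single q 1)]
  ring

theorem dd_comm (g : (ι → ℝ) → ℝ) (a b : ι) (y : ι → ℝ) :
    dd (dd g a) b y = dd g a (y + Pi.single b 1) - dd g a y := rfl

theorem dd_tav (g : (ι → ℝ) → ℝ) (a p q : ι) (y : ι → ℝ) :
    dd (Tav p q g) a y = Tav p q (dd g a) y := by
  simp only [dd, Tav, add_right_comm y (Pi.single a 1)]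
  ring

theorem Ab.dd_nonneg {g : (ι → ℝ) → ℝ} (hg : MA g) {y : ι → ℝ} (hy : Ab g y) (a : ι) :
    0 ≤ dd g a y :=
  nonneg_of_affine (A := g y) fun t ht => by
    have := hy _ (le_add_single y a ht)
    rw [hg a] at this
    exact this.le

theorem Good.step [Fintype ι] {g : (ι → ℝ) → ℝ} (hg : Good g) (p q : ι) {y : ι → ℝ}
    (hy : Ab g y) {δ : ℝ} (hδ : 0 < δ) (hΦ : dd g p y / g y + dd g q y / g y ≤ 2 - 1 / δ) :
    Ab (Tav p q g) (y + Pi.single p δ + Pi.single q δ) ∧ ∀ a, a ≠ p → a ≠ q →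
      dd (Tav p q g) a (y + Pi.single p δ + Pi.single q δ) /
        Tav p q g (y + Pi.single p δ + Pi.single q δ) ≤ dd g a y / g y := by
  have hlow : ∀ y', y ≤ y' → g y' / (2 * δ) ≤ Tav p q g y' := by
    intro y' h
    have h1 := hg.mono p hy h
    have h2 := hg.mono q hy h
    have hp := hy y' h
    have h3 : (dd g p y' + dd g q y') / g y' ≤ 2 - 1 / δ := by rw [add_div]; linarith
    rw [div_le_iff₀ hp] at h3
    rw [hg.ma.tav_eq]
    have e : g y' / (2 * δ) = 1 / δ * g y' / 2 := by field_simp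
    rw [e]; linarith
  have hle : y ≤ y + Pi.single p δ + Pi.single q δ :=
    (le_add_single y p hδ.le).trans (le_add_single _ q hδ.le)
  refine ⟨fun y' h => lt_of_lt_of_le (div_pos (hy _ (hle.trans h)) (by positivity))
    (hlow _ (hle.trans h)), fun a hap haq => ?_⟩
  have hP := hy _ hle
  have hT := hlow _ hle
  have h0 := hy y le_rfl
  rw [div_le_div_iff₀ (lt_of_lt_of_le (div_pos hP (by positivity)) hT) h0, dd_tav,
    (hg.ma.dd a).tav_eq]
  rw [hg.ma.tav_eq] at hT ⊢
  have h1 : 0 ≤ dd g p y + dd g q y := add_nonneg (hy.dd_nonneg hg.ma p) (hy.dd_nonneg hg.ma q)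
  have h2 : 0 ≤ dd g p (y + Pi.single q 1) - dd g p y :=
    nonneg_of_affine (A := dd g p y) fun t ht => by
      have := (hy.mono (le_add_single y q ht)).dd_nonneg hg.ma p
      rw [hg.ma.dd p q y t] at this
      exact this
  have hW : ∀ t, g (y + Pi.single p t + Pi.single q t) *
      (dd (dd g a) p (y + Pi.single p t + Pi.single q t) +
        dd (dd g a) q (y + Pi.single p t + Pi.single q t)) ≤
      dd g a (y + Pi.single p t + Pi.single q t) *
        (dd g p (y + Pi.single p t + Pi.single q t) +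
          dd g q (y + Pi.single p t + Pi.single q t)) := fun t => by
    have r1 := hg.rayleigh hap (y + Pi.single p t + Pi.single q t)
    have r2 := hg.rayleigh haq (y + Pi.single p t + Pi.single q t)
    rw [dd_comm, dd_comm]
    linarith
  have hWδ := hW δ
  simp only [hg.ma.quad, hg.ma.quad', (hg.ma.dd a).quad, (hg.ma.dd a).quad'] at hW
  have hc := conv_alg h0 h1 h2 hδ.le hW
  rw [← hg.ma.quad, ← hg.ma.quad', ← (hg.ma.dd a).quad, ← (hg.ma.dd a).quad'] at hc
  generalize g (y + Pi.single p δ + Pi.single q δ) = P at *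
  generalize dd g a (y + Pi.single p δ + Pi.single q δ) = Q at *
  generalize dd g p (y + Pi.single p δ + Pi.single q δ) +
    dd g q (y + Pi.single p δ + Pi.single q δ) = P' at *
  generalize dd (dd g a) p (y + Pi.single p δ + Pi.single q δ) +
    dd (dd g a) q (y + Pi.single p δ + Pi.single q δ) = Q' at *
  generalize g y = A0 at *
  generalize dd g a y = B0 at *
  have hWn : 0 ≤ δ * A0 * (Q * P' - P * Q') := mul_nonneg (by positivity) (by linarith)
  have hK : 0 ≤ B0 * P - A0 * Q := nonneg_of_mul_nonneg_left (hWn.trans hc) hP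
  have h3 : (B0 * P - A0 * Q) * (P / (2 * δ)) ≤ (B0 * P - A0 * Q) * (P - P' / 2) :=
    mul_le_mul_of_nonneg_left hT hK
  have h4 : A0 * (Q * P' - P * Q') / 2 ≤ (B0 * P - A0 * Q) * (P / (2 * δ)) := by
    rw [← mul_div_assoc, div_le_div_iff₀ (by positivity) (by positivity)]
    nlinarith
  have h5 : 0 ≤ P * (B0 * (P - P' / 2) - (Q - Q' / 2) * A0) := by nlinarith
  have := nonneg_of_mul_nonneg_right h5 hP
  linarith

theorem Good.select [Fintype ι] {g : (ι → ℝ) → ℝ} (hg : Good g) (p q : ι) {y : ι → ℝ}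
    (hy : Ab (Tav p q g) y) :
    Ab g (y + Pi.single p (-1)) ∨ Ab g (y + Pi.single q (-1)) := by
  have hA : Ab g y := by
    intro y' h
    have h0 := hy y' h
    have h1 := hy _ (h.trans ((le_add_single y' p zero_le_one).trans
      (le_add_single _ q zero_le_one)))
    rw [hg.ma.tav_eq] at h0 h1
    rw [hg.ma.quad, hg.ma.quad'] at h1
    linarith
  have key : ∀ a, dd g a y < g y → Ab g (y + Pi.single a (-1)) := by
    intro a ha y' h
    have h1 : y ≤ y' + Pi.single a 1 := by
      have := add_le_add_left h (Pi.single a 1)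
      rwa [add_assoc, ← Pi.single_add, neg_add_cancel, Pi.single_zero, add_zero] at this
    have h2 := hg.mono a hA h1
    have h3 : dd g a y / g y < 1 := (div_lt_one (hA y le_rfl)).2 ha
    have h4 := (div_lt_one (hA _ h1)).1 (h2.trans_lt h3)
    rw [hg.ma.dd_self] at h4
    simp only [dd] at h4
    linarith
  have h0 := hy y le_rfl
  rw [hg.ma.tav_eq] at h0
  by_cases h : dd g p y < g y
  · exact Or.inl (key p h)
  · exact Or.inr (key q (by linarith))

variable {E : Type*} [DecidableEq E]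

/-- iterated averaging -/
noncomputable def avg : List E → ((E × Bool → ℝ) → ℝ) → (E × Bool → ℝ) → ℝ
  | [], g => g
  | e :: l, g => Tav (e, false) (e, true) (avg l g)

theorem Good.avg {g : (E × Bool → ℝ) → ℝ} (hg : Good g) : ∀ l : List E, Good (avg l g)
  | [] => hg
  | _ :: l => (Good.avg hg l).tav _ _

theorem Good.phase1 [Fintype E] {g : (E × Bool → ℝ) → ℝ} (hg : Good g) {y : E × Bool → ℝ}
    (hy : Ab g y) {δ : ℝ} (hδ : 0 < δ)
    (hΦ : ∀ e, dd g (e, false) y / g y + dd g (e, true) y / g y ≤ 2 - 1 / δ) :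
    ∀ l : List E, l.Nodup →
      Ab (Vale.Agent.P061.avg l g) (fun a => y a + if a.1 ∈ l then δ else 0) ∧ ∀ a, a.1 ∉ l →
        dd (Vale.Agent.P061.avg l g) a (fun a => y a + if a.1 ∈ l then δ else 0) /
          Vale.Agent.P061.avg l g (fun a => y a + if a.1 ∈ l then δ else 0) ≤ dd g a y / g y
  | [], _ => by simpa [Vale.Agent.P061.avg] using hy
  | e :: l, hl => by
    rw [List.nodup_cons] at hl
    obtain ⟨h1, h2⟩ := Good.phase1 hg hy hδ hΦ l hl.2
    have e1 : (fun a : E × Bool => y a + if a.1 ∈ e :: l then δ else 0) =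
        (fun a : E × Bool => y a + if a.1 ∈ l then δ else 0) + Pi.single (e, false) δ +
          Pi.single (e, true) δ := by
      ext ⟨e', b⟩
      by_cases h : e' = e
      · subst h; cases b <;> simp [hl.1]
      · simp [h]
    obtain ⟨h3, h4⟩ := (hg.avg l).step (e, false) (e, true) h1 hδ (by
      linarith [h2 (e, false) hl.1, h2 (e, true) hl.1, hΦ e])
    rw [e1]
    refine ⟨h3, fun a ha => ?_⟩
    simp only [List.mem_cons, not_or] at ha
    exact (h4 a (fun h => ha.1 (by rw [h])) (fun h => ha.1 (by rw [h]))).trans (h2 a ha.2)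

theorem Good.phase2 [Fintype E] {g : (E × Bool → ℝ) → ℝ} (hg : Good g) :
    ∀ l : List E, l.Nodup → ∀ y, Ab (Vale.Agent.P061.avg l g) y →
      ∃ σ : E → Bool, Ab g (fun a => y a - if a.1 ∈ l ∧ σ a.1 = a.2 then 1 else 0)
  | [], _, y, hy => ⟨fun _ => true, by simpa [Vale.Agent.P061.avg] using hy⟩
  | e :: l, hl, y, hy => by
    rw [List.nodup_cons] at hl
    obtain ⟨b, hb⟩ : ∃ b, Ab (Vale.Agent.P061.avg l g) (y + Pi.single (e, b) (-1)) := by
      rcases (hg.avg l).select _ _ hy with h | h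
      exacts [⟨_, h⟩, ⟨_, h⟩]
    obtain ⟨σ, hσ⟩ := Good.phase2 hg l hl.2 _ hb
    refine ⟨Function.update σ e b, ?_⟩
    convert hσ using 1
    ext ⟨e', b'⟩
    by_cases h : e' = e
    · subst h
      by_cases hb' : b = b'
      · subst hb'; simp [hl.1, sub_eq_add_neg]
      · simp [hl.1, hb', Ne.symm hb']
    · simp [h]

theorem Good.ks [Fintype E] {g : (E × Bool → ℝ) → ℝ} (hg : Good g) {δ : ℝ} (hδ : 0 < δ)
    (hy : Ab g (fun _ => -δ))
    (hΦ : ∀ e, dd g (e, false) (fun _ => -δ) / g (fun _ => -δ) +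
      dd g (e, true) (fun _ => -δ) / g (fun _ => -δ) ≤ 2 - 1 / δ) :
    ∃ σ : E → Bool, Ab g (fun a => if σ a.1 = a.2 then -1 else 0) := by
  have h1 := (hg.phase1 hy hδ hΦ (univ : Finset E).toList (nodup_toList _)).1
  obtain ⟨σ, hσ⟩ := hg.phase2 _ (nodup_toList _) _ h1
  refine ⟨σ, ?_⟩
  convert hσ using 2 with a
  by_cases h : σ a.1 = a.2 <;> simp [h]

end Vale.Agent.P061
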