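import Vale.Agent.P061.Lin

/-! Rank and trace estimates. -/

namespace Vale.Agent.P061

open Finset Matrix

variable {V Z : Type*} [Fintype V] [DecidableEq V] [Fintype Z] [DecidableEq Z]

omit [DecidableEq V] in
theorem exists_frame {M : Matrix V V ℝ} (hM : M.IsSymm) (K : Matrix V Z ℝ) :
    ∃ (v : Z → Z → ℝ) (μ : Z → ℝ), (∀ i j, v i ⬝ᵥ v j = if i = j then 1 else 0) ∧
      (∀ β, qf M (K *ᵥ β) = ∑ i, μ i * (v i ⬝ᵥ β) ^ 2) ∧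
      ∀ β f, f ⬝ᵥ K *ᵥ β = ∑ i, (v i ⬝ᵥ β) * (f ⬝ᵥ K *ᵥ v i) := by
  have hA : (Kᵀ * M * K).IsSymm := by
    rw [IsSymm, transpose_mul, transpose_mul, transpose_transpose, hM.eq, Matrix.mul_assoc]
  obtain ⟨v, μ, h1, h2, h3⟩ := exists_diag hA
  refine ⟨v, μ, h2, fun β => ?_, fun β f => ?_⟩
  · have e : qf M (K *ᵥ β) = β ⬝ᵥ (Kᵀ * M * K) *ᵥ β := by
      rw [qf, ← mulVec_mulVec, ← mulVec_mulVec, dotProduct_mulVec β, vecMul_transpose]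
    rw [e]
    nth_rewrite 2 [h3 β]
    rw [mulVec_sum, dotProduct_sum]
    refine sum_congr rfl fun i _ => ?_
    rw [mulVec_smul, h1, dotProduct_smul, dotProduct_smul, dotProduct_comm β]
    simp only [smul_eq_mul]; ring
  · nth_rewrite 1 [h3 β]
    rw [mulVec_sum, dotProduct_sum]
    refine sum_congr rfl fun i _ => ?_
    rw [mulVec_smul, dotProduct_smul, smul_eq_mul]

theorem dot_sub (f : V → ℝ) (x y : V) :
    f ⬝ᵥ (Pi.single x 1 - Pi.single y 1) = f x - f y := by simp [dotProduct_sub]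

theorem rank_bound {E : Type*} {s t : E → V} {M : Matrix V V ℝ} (hM : PSD M) (B : Finset E)
    (f : E → V → ℝ) {ρ l : ℝ} (hρ : 0 < ρ) (hl : 0 ≤ l)
    (h1 : ∀ ξ, ρ * ∑ e ∈ B, (f e ⬝ᵥ ξ) ^ 2 ≤ qf M ξ)
    (h2 : ∀ e ∈ B, f e (s e) - f e (t e) = 1) (Z : Finset V)
    (h3 : ∀ e ∈ B, ∃ z ∈ Z, ∃ w ∈ Z, qf M (Pi.single (s e) 1 - Pi.single z 1) ≤ ρ / 16 ∧
      qf M (Pi.single (t e) 1 - Pi.single w 1) ≤ ρ / 16 ∧
      qf M (Pi.single z 1 - Pi.single w 1) ≤ l) : ρ * B.card ≤ 4 * l * Z.card := by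
  classical
  rcases B.eq_empty_or_nonempty with rfl | hB
  · simp only [card_empty, Nat.cast_zero, mul_zero]; positivity
  haveI : Nonempty V := ⟨s hB.choose⟩
  choose! z hz w hw h4 h5 h6 using h3
  let K : Matrix V Z ℝ := Matrix.of fun x z => if x = z then 1 else 0
  have hK : ∀ a : Z, K *ᵥ Pi.single a 1 = Pi.single (a : V) 1 := fun a => by
    ext x; simp [K, Pi.single_apply]
  obtain ⟨v, μ, ho, hq, hf⟩ := exists_frame hM.1 K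
  have hμ : ∀ i, qf M (K *ᵥ v i) = μ i := fun i => by simp [hq, ho]
  let β : E → Z → ℝ := fun e => if he : e ∈ B then
    Pi.single ⟨z e, hz e he⟩ 1 - Pi.single ⟨w e, hw e he⟩ 1 else 0
  have hβ : ∀ e ∈ B, K *ᵥ β e = Pi.single (z e) 1 - Pi.single (w e) 1 := fun e he => by
    simp only [β, dif_pos he, mulVec_sub, hK]
  have hsm : ∀ e ∈ B, ∀ x y, qf M (Pi.single x 1 - Pi.single y 1) ≤ ρ / 16 →
      |f e x - f e y| ≤ 1 / 4 := fun e he x y h => by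
    have a := single_le_sum (f := fun e => (f e ⬝ᵥ (Pi.single x 1 - Pi.single y 1)) ^ 2)
      (fun _ _ => sq_nonneg _) he
    have b := (mul_le_mul_of_nonneg_left a hρ.le).trans ((h1 _).trans h)
    rw [dot_sub] at b
    refine abs_le_of_sq_le_sq' ?_ (by norm_num) |> abs_le.2
    nlinarith
  have hhalf : ∀ e ∈ B, 1 / 2 ≤ f e ⬝ᵥ K *ᵥ β e := fun e he => by
    rw [hβ e he, dot_sub]
    have a := abs_le.1 (hsm e he _ _ (h4 e he))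
    have b := abs_le.1 (hsm e he _ _ (h5 e he))
    linarith [h2 e he]
  have a1 : (B.card : ℝ) / 2 ≤ ∑ i, ∑ e ∈ B, (v i ⬝ᵥ β e) * (f e ⬝ᵥ K *ᵥ v i) := by
    rw [sum_comm]
    have := sum_le_sum hhalf
    simp only [hf (β _), sum_const, nsmul_eq_mul] at this
    linarith
  have a2 : ∀ i, ρ * (∑ e ∈ B, (v i ⬝ᵥ β e) * (f e ⬝ᵥ K *ᵥ v i)) ^ 2 ≤
      ∑ e ∈ B, μ i * (v i ⬝ᵥ β e) ^ 2 := fun i => by
    have a := sum_mul_sq_le_sq_mul_sq B (fun e => v i ⬝ᵥ β e) (fun e => f e ⬝ᵥ K *ᵥ v i)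
    have b := h1 (K *ᵥ v i)
    rw [hμ] at b
    rw [← mul_sum]
    have c : 0 ≤ ∑ e ∈ B, (v i ⬝ᵥ β e) ^ 2 := sum_nonneg fun _ _ => sq_nonneg _
    nlinarith [mul_le_mul_of_nonneg_left a hρ.le, mul_le_mul_of_nonneg_left b c]
  have a3 : ∑ i, ∑ e ∈ B, μ i * (v i ⬝ᵥ β e) ^ 2 ≤ B.card * l := by
    rw [sum_comm, ← nsmul_eq_mul]
    refine sum_le_card_nsmul _ _ _ fun e he => ?_
    rw [← hq, hβ e he]; exact h6 e he
  have a4 := sq_sum_le_card_mul_sum_sq (s := (univ : Finset Z))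
    (f := fun i => ∑ e ∈ B, (v i ⬝ᵥ β e) * (f e ⬝ᵥ K *ᵥ v i))
  have a5 := (sum_le_sum fun i (_ : i ∈ univ) => a2 i).trans a3
  rw [← mul_sum] at a5
  rw [card_univ, Fintype.card_coe] at a4
  have hm : (0 : ℝ) < B.card := by exact_mod_cast hB.card_pos
  have a6 := pow_le_pow_left₀ (div_nonneg hm.le zero_le_two) a1 2
  have a7 := mul_le_mul_of_nonneg_left (a6.trans a4) hρ.le
  have a8 := mul_le_mul_of_nonneg_left a5 (Nat.cast_nonneg (α := ℝ) Z.card)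
  refine le_of_mul_le_mul_left ?_ hm
  nlinarith

omit [DecidableEq V] in
theorem exists_onb {N : Matrix V V ℝ} (hN : PD N) (K : Matrix V Z ℝ)
    (hK : ∀ β, K *ᵥ β = 0 → β = 0) :
    ∃ g : Z → V → ℝ, (∀ i, ∃ β, g i = K *ᵥ β) ∧ (∀ i, qf N (g i) = 1) ∧
      ∀ (c : V → ℝ) (η : ℝ), 0 ≤ η → (∀ ξ, (c ⬝ᵥ ξ) ^ 2 ≤ η * qf N ξ) →
        ∑ i, (c ⬝ᵥ g i) ^ 2 ≤ η := by
  obtain ⟨v, μ, ho, hq, hf⟩ := exists_frame hN.1 K
  have hμ : ∀ i, qf N (K *ᵥ v i) = μ i := fun i => by simp [hq, ho]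
  have hμ0 : ∀ i, 0 < μ i := fun i => by
    rw [← hμ]
    refine hN.2 _ fun h => ?_
    have := ho i i
    rw [hK _ h] at this
    simp at this
  have hs : ∀ i, (√(μ i))⁻¹ ^ 2 = (μ i)⁻¹ := fun i => by rw [inv_pow, Real.sq_sqrt (hμ0 i).le]
  refine ⟨fun i => (√(μ i))⁻¹ • K *ᵥ v i, fun i => ⟨(√(μ i))⁻¹ • v i, (mulVec_smul _ _ _).symm⟩,
    fun i => ?_, fun c η hη hc => ?_⟩
  · rw [qf_smul_vec, hμ, hs, inv_mul_cancel₀ (hμ0 i).ne']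
  · have h1 := hc (K *ᵥ ∑ j, ((μ j)⁻¹ * (c ⬝ᵥ K *ᵥ v j)) • v j)
    have h2 : ∀ i, v i ⬝ᵥ ∑ j, ((μ j)⁻¹ * (c ⬝ᵥ K *ᵥ v j)) • v j = (μ i)⁻¹ * (c ⬝ᵥ K *ᵥ v i) :=
      fun i => by simp [dotProduct_sum, ho]
    rw [hq, hf] at h1
    simp only [h2] at h1
    have e1 : ∑ i, (c ⬝ᵥ (√(μ i))⁻¹ • K *ᵥ v i) ^ 2 =
        ∑ i, (μ i)⁻¹ * (c ⬝ᵥ K *ᵥ v i) * (c ⬝ᵥ K *ᵥ v i) := sum_congr rfl fun i _ => by
      rw [dotProduct_smul, smul_eq_mul, mul_pow, hs]; ring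
    have e2 : ∑ i, μ i * ((μ i)⁻¹ * (c ⬝ᵥ K *ᵥ v i)) ^ 2 =
        ∑ i, (μ i)⁻¹ * (c ⬝ᵥ K *ᵥ v i) * (c ⬝ᵥ K *ᵥ v i) := sum_congr rfl fun i _ => by
      have := (hμ0 i).ne'
      field_simp
    rw [e1]
    rw [e2] at h1
    by_contra hcon
    push_neg at hcon
    nlinarith

end Vale.Agent.P061
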