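import Vale.Agent.P061.Pack
import Vale.Agent.P061.Rank

/-! The multiscale estimate along a threshold chain. -/

namespace Vale.Agent.P061

open Finset Matrix

theorem geom_le (x : ℕ → ℝ) (h0 : ∀ j, 0 ≤ x j) (h2 : ∀ j, 2 * x j ≤ x (j + 1)) {a : ℝ}
    (ha : 0 ≤ a) (J : ℕ) : ∑ j ∈ range J, (if x j ≤ a then x j else 0) ≤ 2 * a := by
  have key : ∑ j ∈ range J, (if x j ≤ a then x j else 0) ≤ 2 * a ∧
      ∑ j ∈ range J, (if x j ≤ a then x j else 0) ≤ x J := by
    induction J with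
    | zero => simp [ha, h0]
    | succ J ih =>
      rw [sum_range_succ]
      have := h2 J
      have := h0 J
      split_ifs with h <;> constructor <;> linarith [ih.1, ih.2]
  exact key.1

theorem geom_card {E : Type*} (x : ℕ → ℝ) (h0 : ∀ j, 0 ≤ x j) (h2 : ∀ j, 2 * x j ≤ x (j + 1))
    (S : Finset E) (a : E → ℝ) (ha : ∀ e ∈ S, 0 ≤ a e) (J : ℕ) (A : ℕ → Finset E)
    (hA : ∀ j < J, ∀ e ∈ A j, e ∈ S ∧ x j ≤ a e) :
    ∑ j ∈ range J, x j * (A j).card ≤ 2 * ∑ e ∈ S, a e := by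
  classical
  rw [mul_sum]
  refine le_trans ?_ (sum_le_sum fun e he => geom_le x h0 h2 (ha e he) J)
  rw [sum_comm]
  refine sum_le_sum fun j hj => ?_
  rw [← sum_filter, sum_const, nsmul_eq_mul, mul_comm]
  exact mul_le_mul_of_nonneg_right (Nat.cast_le.2 (card_le_card fun e he =>
    mem_filter.2 (hA j (mem_range.1 hj) e he))) (h0 j)

theorem exists_levels {E : Type*} (S : Finset E) (a : E → ℝ) (ha : ∀ e ∈ S, 0 ≤ a e ∧ a e ≤ 1)
    {p : ℕ} (hp : 0 < p) : ∃ (x0 : ℝ) (J : ℕ), 0 < x0 ∧ (∀ j < J, x0 * 2 ^ (p * j) ≤ 1) ∧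
      ∑ e ∈ S, a e ≤ p * ∑ j ∈ range J, 2 * (x0 * 2 ^ (p * j)) *
        (S.filter fun e => x0 * 2 ^ (p * j) < a e ∧ a e ≤ 2 * (x0 * 2 ^ (p * j))).card := by
  classical
  have h1 : ∀ e ∈ S.filter (fun e => 0 < a e), ∃ n : ℕ,
      (1 / 2 : ℝ) ^ (n + 1) < a e ∧ a e ≤ (1 / 2) ^ n := fun e he =>
    exists_nat_pow_near_of_lt_one (mem_filter.1 he).2 (ha e (mem_filter.1 he).1).2
      (by norm_num) (by norm_num)
  choose! ix hix using h1
  obtain ⟨K, hK⟩ : ∃ K, K = S.sup ix := ⟨_, rfl⟩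
  have hKle : ∀ e ∈ S, ix e / p ≤ K := fun e he =>
    (Nat.div_le_self _ _).trans (hK ▸ le_sup he)
  have h2 : ∑ e ∈ S, a e = ∑ e ∈ S.filter (fun e => 0 < a e), a e := by
    rw [sum_filter]
    refine sum_congr rfl fun e he => ?_
    split_ifs with h
    · rfl
    · exact le_antisymm (not_lt.1 h) (ha e he).1
  obtain ⟨c, hc, h3⟩ := exists_le_sum_fiber_of_maps_to_of_nsmul_le_sum
    (s := S.filter fun e => 0 < a e) (t := range p) (f := fun e => ix e % p) (w := a)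
    (b := (∑ e ∈ S, a e) / p) (fun e _ => mem_range.2 (Nat.mod_lt _ hp)) (by simp [hp.ne'])
    (by rw [← h2, card_range, nsmul_eq_mul, mul_div_cancel₀ _ (by positivity)])
  have h4 : ∀ j ≤ K, (1 / 2 : ℝ) ^ (c + p * K + 1) * 2 ^ (p * j) =
      (1 / 2) ^ (c + p * (K - j) + 1) := by
    intro j hj
    obtain ⟨k, rfl⟩ := Nat.exists_eq_add_of_le hj
    rw [Nat.add_sub_cancel_left,
      show c + p * (j + k) + 1 = (c + p * k + 1) + p * j by ring, pow_add, mul_assoc, ← mul_pow]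
    norm_num
  refine ⟨(1 / 2) ^ (c + p * K + 1), K + 1, by positivity, fun j hj => ?_, ?_⟩
  · rw [h4 j (by omega)]
    exact pow_le_one₀ (by norm_num) (by norm_num)
  · rw [div_le_iff₀' (by positivity)] at h3
    refine h3.trans (mul_le_mul_of_nonneg_left ?_ (by positivity))
    rw [← sum_fiberwise_of_maps_to (t := range (K + 1)) (g := fun e => K - ix e / p)
      fun e _ => mem_range.2 (Nat.lt_succ_of_le (Nat.sub_le _ _))]
    refine sum_le_sum fun j hj => ?_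
    rw [mul_comm, ← nsmul_eq_mul]
    have h5 : ∀ e ∈ ((S.filter fun e => 0 < a e).filter fun e => ix e % p = c).filter
        fun e => K - ix e / p = j, e ∈ S.filter fun e =>
          (1 / 2 : ℝ) ^ (c + p * K + 1) * 2 ^ (p * j) < a e ∧
          a e ≤ 2 * ((1 / 2) ^ (c + p * K + 1) * 2 ^ (p * j)) := by
      intro e he
      rw [mem_filter, mem_filter] at he
      obtain ⟨⟨b1, b2⟩, b3⟩ := he
      have b4 := hix e b1
      have b5 := hKle e (mem_filter.1 b1).1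
      have b6 : c + p * (K - j) = ix e := by
        rw [← b3, Nat.sub_sub_self b5, ← b2, Nat.mod_add_div]
      rw [mem_filter, h4 j (Nat.lt_succ_iff.1 (mem_range.1 hj)), b6]
      refine ⟨(mem_filter.1 b1).1, b4.1, b4.2.trans_eq ?_⟩
      rw [pow_succ]; ring
    refine (sum_le_card_nsmul _ _ _ fun e he => (mem_filter.1 (h5 e he)).2.2).trans ?_
    exact nsmul_le_nsmul_left (by positivity) (card_le_card h5)

theorem final_arith {θ τ T Sg W Xs Zs Ms Ls Ys p L w : ℝ} (hθ : 0 < θ) (hτ : 0 < τ - θ)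
    (hp0 : 2 ≤ p) (hL0 : 1 ≤ L) (hw : 0 < w) (hS0 : 0 < Sg) (hX0 : 0 ≤ Xs)
    (c1 : 1024 * p * T ≤ L) (c2 : 16 * p * θ ≤ w * (τ - θ))
    (c3 : 64 * p * L * (2 * L + 14) ^ 2 ≤ τ - θ)
    (c4 : 7168 * p * L * (2 * L + 14) * (T + 1) ≤ θ) (hW : W ≤ T * Sg)
    (e1 : (τ - θ) * Xs ≤ 2 * Sg)
    (e2 : θ * Zs ≤ 448 * (2 * L + 14) * (W + Sg) + θ * (2 * L + 14) ^ 2 * (2 * Xs))
    (e3 : Ms ≤ L * Zs) (e4 : Ls ≤ 128 * W / L) (e5 : w * Ys ≤ θ * Xs)
    (e6 : Sg ≤ p * (2 * (Ms + Ls + Ys))) : False := by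
  have g1 : 8 * p * Ls ≤ Sg := by
    rw [le_div_iff₀ (by positivity)] at e4
    refine le_of_mul_le_mul_right ?_ (by positivity : (0 : ℝ) < L)
    have b1 := mul_le_mul_of_nonneg_left e4 (by positivity : (0 : ℝ) ≤ 8 * p)
    have b2 := mul_le_mul_of_nonneg_left hW (by positivity : (0 : ℝ) ≤ 1024 * p)
    have b3 := mul_le_mul_of_nonneg_left c1 hS0.le
    linarith
  have g2 : 8 * p * Ys ≤ Sg := by
    refine le_of_mul_le_mul_right ?_ (by positivity : (0 : ℝ) < w * (τ - θ))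
    have b1 := mul_le_mul_of_nonneg_left e5 (by positivity : (0 : ℝ) ≤ 8 * p * (τ - θ))
    have b2 := mul_le_mul_of_nonneg_left e1 (by positivity : (0 : ℝ) ≤ 8 * p * θ)
    have b3 := mul_le_mul_of_nonneg_left c2 hS0.le
    linarith
  have g3 : 32 * p * L * (2 * L + 14) ^ 2 * Xs ≤ Sg := by
    have b1 := mul_le_mul_of_nonneg_right c3 hX0
    linarith
  have g4 : 8 * p * L * Zs ≤ Sg := by
    refine le_of_mul_le_mul_left ?_ hθ
    have b1 := mul_le_mul_of_nonneg_left e2 (by positivity : (0 : ℝ) ≤ 8 * p * L)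
    have b2 := mul_le_mul_of_nonneg_left g3 hθ.le
    have b3 := mul_le_mul_of_nonneg_right c4 hS0.le
    have b4 := mul_le_mul_of_nonneg_left hW
      (by positivity : (0 : ℝ) ≤ 3584 * p * L * (2 * L + 14))
    linarith
  have g5 := mul_le_mul_of_nonneg_left e3 (by positivity : (0 : ℝ) ≤ 8 * p)
  linarith

variable {V E : Type*} [Fintype V] [DecidableEq V] [DecidableEq E] {s t : E → V}

theorem chain_false [Nonempty V] {E0 : Finset E} {τ θ T : ℝ} {p L : ℕ}
    (hE0 : PC s t E0 univ τ) (hθ : 0 < θ) (hT : 0 ≤ T) (hL : 1 ≤ L) (hp : 2 ≤ p)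
    (c1 : 1024 * p * T ≤ L) (c2 : 16 * p * θ ≤ 2 ^ p * (τ - θ))
    (c3 : 64 * p * L * (2 * L + 14) ^ 2 ≤ τ - θ)
    (c4 : 7168 * p * L * (2 * L + 14) * (T + 1) ≤ θ) (c5 : 2 * (L + 6) ≤ 2 ^ p)
    (F : ℝ → Finset E) (hF0 : ∀ ρ, F ρ ⊆ E0) (hFm : ∀ ρ ρ', ρ ≤ ρ' → F ρ ⊆ F ρ')
    (hF1 : ¬PC s t (F 1) univ θ) (a : E → ℝ) (ha : ∀ e, 0 ≤ a e ∧ a e ≤ 1)
    (ha1 : ∀ e ∈ E0, ∀ ρ, 0 < ρ → ρ < a e → ¬Rel s t (F ρ) θ (s e) (t e))
    (ha2 : ∀ e ∈ E0, ∀ ρ, 0 < ρ → ρ ≤ 1 → e ∉ F ρ → ¬Rel s t (F ρ) θ (s e) (t e) → ρ ≤ a e)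
    {M : Matrix V V ℝ} (hM : PSD M) (f : E → V → ℝ) (hf : ∀ e ∈ E0, f e (s e) - f e (t e) = 1)
    (hMf : ∀ ξ, ∑ e ∈ E0, a e * (f e ⬝ᵥ ξ) ^ 2 ≤ qf M ξ)
    (D : V → V → ℝ) (hD : ∀ x y, qf M (Pi.single x 1 - Pi.single y 1) = D x y)
    (hsym : ∀ x y, D x y = D y x) (htri : ∀ x y z, D x z ≤ D x y + D y z)
    (hW : ∑ e ∈ E0, D (s e) (t e) ≤ T * ∑ e ∈ E0, a e) : False := by
  classical
  obtain ⟨v0⟩ := ‹Nonempty V›
  haveI : Nonempty V := ⟨v0⟩
  have hp0 : (2 : ℝ) ≤ p := by exact_mod_cast hp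
  have hL0 : (1 : ℝ) ≤ L := by exact_mod_cast hL
  have hτ : 0 < τ - θ := lt_of_lt_of_le (by positivity) c3
  have hD0 : ∀ x y, 0 ≤ D x y := fun x y => hD x y ▸ hM.2 _
  choose P hP1 hP2 hP3 using fun ρ => exists_min s t (F ρ) hθ.le
  have hn : ∀ ρ, ρ ≤ 1 → (2 : ℝ) ≤ (univ.image (P ρ)).card := by
    intro ρ hρ
    by_contra h
    have h1 : (univ.image (P ρ)).card ≤ 1 := by
      have : (univ.image (P ρ)).card < 2 := by exact_mod_cast not_le.1 h
      omega
    have h2 := hP2 ρ v0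
    rw [filter_true_of_mem fun y _ => card_le_one.1 h1 _ (mem_image_of_mem _ (mem_univ y)) _
      (mem_image_of_mem _ (mem_univ v0))] at h2
    exact hF1 (h2.mono (hFm _ _ hρ))
  have hA : ∀ ρ, (τ - θ) * (((univ.image (P ρ)).card : ℝ) - 1) ≤
      (cr s t E0 univ (P ρ) \ F ρ).card := by
    intro ρ
    have h1 : (cr s t E0 univ (P ρ)).card ≤ (cr s t E0 univ (P ρ) \ F ρ).card +
        (cr s t (F ρ) univ (P ρ)).card := by
      refine le_trans (card_le_card fun e he => ?_) (card_union_le _ _)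
      simp only [mem_union, mem_sdiff, mem_cr] at he ⊢
      tauto
    have h2 := (Nat.cast_le (α := ℝ)).2 h1
    push_cast at h2
    linarith [hE0 (P ρ), hP3 ρ]
  have hA2 : ∀ ρ, 0 < ρ → ρ ≤ 1 → ∀ e ∈ cr s t E0 univ (P ρ) \ F ρ, e ∈ E0 ∧ ρ ≤ a e := by
    intro ρ h0 h1 e he
    rw [mem_sdiff, mem_cr] at he
    exact ⟨he.1.1, ha2 e he.1.1 ρ h0 h1 he.2 fun h => he.1.2.2.2 ((hP1 ρ _ _).1 h)⟩
  obtain ⟨Sg, hSg⟩ : ∃ Sg, Sg = ∑ e ∈ E0, a e := ⟨_, rfl⟩
  have hS0 : 0 < Sg := by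
    have h1 : (0 : ℝ) < (cr s t E0 univ (P 1) \ F 1).card :=
      lt_of_lt_of_le (mul_pos hτ (by linarith [hn 1 le_rfl])) (hA 1)
    obtain ⟨e, he⟩ := card_pos.1 (Nat.cast_pos.1 h1)
    obtain ⟨h2, h3⟩ := hA2 1 one_pos le_rfl e he
    rw [hSg]
    exact lt_of_lt_of_le (by linarith) (single_le_sum (fun e _ => (ha e).1) h2)
  obtain ⟨x0, J, hx0, hx1, hlev⟩ := exists_levels E0 a (fun e _ => ha e) (p := p) (by omega)
  obtain ⟨x, hx⟩ : ∃ x : ℕ → ℝ, ∀ j, x j = x0 * 2 ^ (p * j) := ⟨_, fun _ => rfl⟩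
  simp only [← hx] at hx1 hlev
  rw [← hSg] at hlev hW
  have hxp : ∀ j, 0 < x j := fun j => by rw [hx]; positivity
  have hxs : ∀ j, x (j + 1) = 2 ^ p * x j := fun j => by rw [hx, hx]; ring
  have h2p : (4 : ℝ) ≤ 2 ^ p := by
    calc (4 : ℝ) = 2 ^ 2 := by norm_num
      _ ≤ _ := pow_le_pow_right₀ (by norm_num) hp
  have hx2 : ∀ j, 2 * x j ≤ x (j + 1) := fun j => by
    rw [hxs]; linarith only [mul_le_mul_of_nonneg_right h2p (hxp j).le, hxp j]
  obtain ⟨r0, hr0⟩ := exists_nat_gt (x0 * E0.card / (64 * Sg))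
  have hr0' : (0 : ℝ) < r0 := lt_of_le_of_lt (by positivity) hr0
  obtain ⟨h, hh⟩ : ∃ h, h = x0 / (64 * r0) := ⟨_, rfl⟩
  have hh0 : 0 < h := by rw [hh]; positivity
  have hhE : h * E0.card ≤ Sg := by
    rw [div_lt_iff₀ (by positivity)] at hr0
    rw [hh, div_mul_eq_mul_div, div_le_iff₀ (by positivity)]
    linarith
  let r : ℕ → ℕ := fun j => r0 * 2 ^ (p * j)
  have hr : ∀ j, 64 * h * r j = x j := fun j => by
    simp only [r, hx, hh]; push_cast; field_simp
  let d : V → V → ℕ := fun u v => ⌈D u v / h⌉₊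
  have hd : IsPM d := ⟨fun u => by simp [d, ← hD, qf_zero], fun u v => by simp only [d, hsym u v],
    fun u v w => (Nat.ceil_mono (by
      rw [← add_div]; exact div_le_div_of_nonneg_right (htri u v w) hh0.le)).trans
      (Nat.ceil_add_le _ _)⟩
  have hd1 : ∀ u v, D u v ≤ h * d u v := fun u v => (div_le_iff₀' hh0).1 (Nat.le_ceil _)
  have hd2 : ∀ u v, h * d u v ≤ D u v + h := fun u v => by
    have := mul_le_mul_of_nonneg_left (Nat.ceil_lt_add_one (div_nonneg (hD0 u v) hh0.le)).le hh0.le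
    rwa [mul_add, mul_div_cancel₀ _ hh0.ne', mul_one] at this
  let q : ℕ → V → V := fun j => if j < J then P (x j) else fun _ => v0
  let B : ℕ → Finset E := fun j => E0.filter fun e => j < J ∧ x j < a e ∧
    D (s e) (t e) ≤ L * x j / 64 ∧ q (j + 1) (s e) = q (j + 1) (t e)
  obtain ⟨Z, hZ, hpack⟩ := pack (s := s) (t := t) hd E0 hθ.le q (fun j u v huv => by
      by_cases hj : j + 1 < J
      · simp only [q, if_pos hj, if_pos (Nat.lt_of_succ_lt hj)] at huv ⊢
        exact (hP1 _ _ _).1 (((hP1 _ _ _).2 huv).mono s t (hFm _ _ (by linarith [hx2 j, hxp j])))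
      · simp only [q, if_neg hj])
    (fun j u pr y z hy hz py pz => by
      by_cases hj : j < J
      · simp only [q, if_pos hj] at hy hz ⊢
        obtain rfl := mem_fib.1 hy
        exact ((hP2 _ y).mono (hF0 _)).cut pr hy hz py pz
      · simp only [q, if_neg hj] at hy hz ⊢
        obtain rfl := mem_fib.1 hy
        have : fib (fun _ : V => v0) v0 = univ := by ext; simp [mem_fib]
        rw [this]
        exact (hE0.le univ_nonempty (by linarith)).cut pr (mem_univ y) (mem_univ z) py pz)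
    r L (fun j => by have := Nat.cast_pos.1 hr0'; positivity) (fun j => by
      calc 2 * ((L + 6) * r j) = r j * (2 * (L + 6)) := by ring
        _ ≤ r j * 2 ^ p := Nat.mul_le_mul_left _ c5
        _ = r (j + 1) := by simp only [r]; ring) B (fun j e he => by
      obtain ⟨b0, b1, b2, b3, b4⟩ := by simpa only [B, mem_filter] using he
      refine ⟨?_, b4, Nat.ceil_le.2 ?_⟩
      · simp only [q, if_pos b1]
        exact fun h => ha1 e b0 _ (hxp j) b2 ((hP1 _ _ _).2 h)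
      · rw [div_le_iff₀ hh0]; push_cast
        rw [← hr] at b3; linarith) J v0 ∅ ⟨by simp, by simp, fun u v huv => by
      simp only [sepa, filter_empty, card_empty]; omega⟩ (by simp)
  have hfib : fib (q J) v0 = univ := by ext; simp [mem_fib, q]
  rw [hfib] at hZ hpack
  simp only [mem_univ, and_self, filter_true, card_empty, Nat.cast_zero, mul_zero, zero_add,
    true_implies] at hZ hpack
  obtain ⟨Xs, hXs⟩ : ∃ X, X = ∑ j ∈ range J, x j * (((univ.image (P (x j))).card : ℝ) - 1) :=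
    ⟨_, rfl⟩
  obtain ⟨Zs, hZs⟩ : ∃ X, X = ∑ j ∈ range J, x j * ((Z j).card : ℝ) := ⟨_, rfl⟩
  obtain ⟨W, hW'⟩ : ∃ W, W = ∑ e ∈ E0, D (s e) (t e) := ⟨_, rfl⟩
  rw [← hW'] at hW
  have e1 : (τ - θ) * Xs ≤ 2 * Sg := by
    rw [hXs, mul_sum, hSg]
    refine le_trans (sum_le_sum fun j _ => ?_) (geom_card x (fun j => (hxp j).le) hx2 E0 a
      (fun e _ => (ha e).1) J (fun j => cr s t E0 univ (P (x j)) \ F (x j))
      fun j hj => hA2 _ (hxp j) (hx1 j hj))
    rw [mul_left_comm]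
    exact mul_le_mul_of_nonneg_left (hA _) (hxp j).le
  have e2 : θ * Zs ≤ 448 * (2 * L + 14) * (W + Sg) + θ * (2 * L + 14) ^ 2 * (2 * Xs) := by
    have b1 : Zs = 64 * h * ∑ j ∈ range J, (r j : ℝ) * (Z j).card := by
      rw [hZs, mul_sum]; exact sum_congr rfl fun j _ => by rw [← hr]; ring
    have b2 : 64 * h * ∑ j ∈ range J, (r j : ℝ) * (univ.image (q j)).card ≤ 2 * Xs := by
      rw [hXs, mul_sum, mul_sum]
      refine sum_le_sum fun j hj => ?_
      have := hn _ (hx1 j (mem_range.1 hj))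
      simp only [q, if_pos (mem_range.1 hj)]
      rw [← mul_assoc, hr]
      linarith only [mul_le_mul_of_nonneg_left this (hxp j).le]
    have b3 : h * ∑ e ∈ E0, (d (s e) (t e) : ℝ) ≤ W + Sg := by
      rw [mul_sum, hW']
      refine (sum_le_sum fun e _ => hd2 _ _).trans ?_
      rw [sum_add_distrib, sum_const, nsmul_eq_mul]
      linarith
    have b4 := mul_le_mul_of_nonneg_left hpack (by positivity : 0 ≤ 64 * h)
    have b5 := mul_le_mul_of_nonneg_left b2 (by positivity : 0 ≤ θ * (2 * L + 14) ^ 2)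
    have b6 := mul_le_mul_of_nonneg_left b3 (by positivity : (0 : ℝ) ≤ 448 * (2 * L + 14))
    rw [b1]
    linarith only [b4, b5, b6]
  have e3 : ∑ j ∈ range J, x j * (B j).card ≤ L * Zs := by
    rw [hZs, mul_sum]
    refine sum_le_sum fun j hj => ?_
    have hxj := hxp j
    refine (rank_bound (s := s) (t := t) hM (B j) f hxj (l := L * x j / 64 + x j / 8)
      (by positivity) (fun ξ => ?_) (fun e he => hf e (mem_filter.1 he).1) (Z j)
      fun e he => ?_).trans ?_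
    · rw [mul_sum]
      refine le_trans ?_ (hMf ξ)
      refine (sum_le_sum fun e he => mul_le_mul_of_nonneg_right (mem_filter.1 he).2.2.1.le
        (sq_nonneg _)).trans (sum_le_sum_of_subset_of_nonneg (filter_subset _ _)
          fun e _ _ => mul_nonneg (ha e).1 (sq_nonneg _))
    · obtain ⟨⟨z, hz, hz'⟩, w, hw, hw'⟩ := hZ j (mem_range.1 hj) e he
      have cv : ∀ u v, d u v < 4 * r j → D u v ≤ x j / 16 := fun u v huv => by
        have b1 : (d u v : ℝ) ≤ 4 * r j := by exact_mod_cast huv.le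
        have b2 := mul_le_mul_of_nonneg_left b1 hh0.le
        linarith [hd1 u v, hr j]
      refine ⟨z, hz, w, hw, ?_⟩
      simp only [hD]
      refine ⟨cv _ _ hz', cv _ _ hw', ?_⟩
      linarith [htri z (s e) w, htri (s e) (t e) w, hsym z (s e), cv _ _ hz', cv _ _ hw',
        (mem_filter.1 he).2.2.2.1]
    · rw [← mul_assoc]
      exact mul_le_mul_of_nonneg_right
        (by linarith only [mul_le_mul_of_nonneg_right hL0 hxj.le, hxj]) (by positivity)
  have e4 : ∑ j ∈ range J, x j * (E0.filter fun e => x j ≤ 64 * D (s e) (t e) / L).card ≤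
      128 * W / L := by
    refine (geom_card x (fun j => (hxp j).le) hx2 E0 (fun e => 64 * D (s e) (t e) / L)
      (fun e _ => by have := hD0 (s e) (t e); positivity) J _
      fun j _ e he => mem_filter.1 he).trans_eq ?_
    rw [hW', ← sum_div, ← mul_sum]; ring
  let X : ℕ → Finset E := fun j => if j < J then cr s t (F (x j)) univ (P (x j)) else ∅
  have e5 : 2 ^ p * ∑ j ∈ range J, x j * (X (j + 1)).card ≤ θ * Xs := by
    have b1 : ∑ j ∈ range (J + 1), x j * (X j).card ≤ θ * Xs := by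
      rw [sum_range_succ, hXs, mul_sum]
      simp only [X, lt_irrefl, if_false, card_empty, Nat.cast_zero, mul_zero, add_zero]
      refine sum_le_sum fun j hj => ?_
      rw [if_pos (mem_range.1 hj), mul_left_comm]
      exact mul_le_mul_of_nonneg_left (hP3 _) (hxp j).le
    rw [sum_range_succ'] at b1
    simp only [hxs, mul_assoc, ← mul_sum] at b1
    have := mul_nonneg (hxp 0).le (Nat.cast_nonneg (α := ℝ) (X 0).card)
    linarith
  have e6 : Sg ≤ p * (2 * (∑ j ∈ range J, x j * (B j).card +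
      ∑ j ∈ range J, x j * (E0.filter fun e => x j ≤ 64 * D (s e) (t e) / L).card +
      ∑ j ∈ range J, x j * (X (j + 1)).card)) := by
    refine hlev.trans (mul_le_mul_of_nonneg_left ?_ (by positivity))
    rw [← sum_add_distrib, ← sum_add_distrib, mul_sum]
    refine sum_le_sum fun j hj => ?_
    rw [← mul_add, ← mul_add, ← mul_assoc]
    refine mul_le_mul_of_nonneg_left ?_ (by have := hxp j; positivity)
    rw [← Nat.cast_add, ← Nat.cast_add, Nat.cast_le]
    refine le_trans ?_ (Nat.add_le_add_right (card_union_le _ _) _)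
    refine le_trans (card_le_card fun e he => ?_) (card_union_le _ _)
    obtain ⟨b0, b1, b2⟩ := mem_filter.1 he
    rw [mem_union, mem_union]
    by_cases b3 : D (s e) (t e) ≤ L * x j / 64
    · by_cases b4 : q (j + 1) (s e) = q (j + 1) (t e)
      · exact Or.inl (Or.inl (mem_filter.2 ⟨b0, mem_range.1 hj, b1, b3, b4⟩))
      · right
        by_cases b5 : j + 1 < J
        · simp only [q, X, if_pos b5] at b4 ⊢
          refine (mem_cr s t).2 ⟨?_, mem_univ _, mem_univ _, b4⟩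
          by_contra b6
          have := ha2 e b0 _ (hxp _) (hx1 _ b5) b6 fun h => b4 ((hP1 _ _ _).1 h)
          rw [hxs] at this
          linarith only [this, b2, mul_le_mul_of_nonneg_right h2p (hxp j).le, hxp j]
        · simp [q, b5] at b4
    · refine Or.inl (Or.inr (mem_filter.2 ⟨b0, ?_⟩))
      rw [le_div_iff₀ (by positivity)]
      linarith only [not_le.1 b3]
  generalize ∑ j ∈ range J, x j * ((B j).card : ℝ) = Ms at e3 e6
  generalize ∑ j ∈ range J, x j * ((E0.filter fun e => x j ≤ 64 * D (s e) (t e) / L).card : ℝ) =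
    Ls at e4 e6
  generalize ∑ j ∈ range J, x j * ((X (j + 1)).card : ℝ) = Ys at e5 e6
  have hX0 : 0 ≤ Xs := by
    rw [hXs]
    exact sum_nonneg fun j hj => mul_nonneg (hxp j).le (by linarith [hn _ (hx1 j (mem_range.1 hj))])
  exact final_arith hθ hτ hp0 hL0 (by positivity) hS0 hX0 c1 c2 c3 c4 hW e1 e2 e3 e4 e5 e6

end Vale.Agent.P061
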