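import Mathlib

/-! Quadratic forms of real matrices. -/

namespace Vale.Agent.P061

open Finset Matrix

variable {n : Type*} [Fintype n]

/-- quadratic form -/
def qf (N : Matrix n n ℝ) (ξ : n → ℝ) : ℝ := ξ ⬝ᵥ N *ᵥ ξ

/-- rank one matrix -/
def rk {R : Type*} [CommRing R] (c : n → R) : Matrix n n R := vecMulVec c c

/-- positive semidefinite -/
def PSD (N : Matrix n n ℝ) : Prop := N.IsSymm ∧ ∀ ξ, 0 ≤ qf N ξ

/-- positive definite -/
def PD (N : Matrix n n ℝ) : Prop := N.IsSymm ∧ ∀ ξ, ξ ≠ 0 → 0 < qf N ξ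

theorem qf_add (A B : Matrix n n ℝ) (ξ : n → ℝ) : qf (A + B) ξ = qf A ξ + qf B ξ := by
  simp [qf, add_mulVec]

theorem qf_sub (A B : Matrix n n ℝ) (ξ : n → ℝ) : qf (A - B) ξ = qf A ξ - qf B ξ := by
  simp [qf, sub_mulVec]

theorem qf_smul (t : ℝ) (A : Matrix n n ℝ) (ξ : n → ℝ) : qf (t • A) ξ = t * qf A ξ := by
  simp [qf, smul_mulVec]

theorem qf_zero (A : Matrix n n ℝ) : qf A 0 = 0 := by simp [qf]

theorem qf_smul_vec (t : ℝ) (A : Matrix n n ℝ) (ξ : n → ℝ) :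
    qf A (t • ξ) = t ^ 2 * qf A ξ := by
  simp [qf, mulVec_smul]; ring

theorem qf_sum {α : Type*} (s : Finset α) (A : α → Matrix n n ℝ) (ξ : n → ℝ) :
    qf (∑ a ∈ s, A a) ξ = ∑ a ∈ s, qf (A a) ξ := by
  simp [qf, sum_mulVec, dotProduct_sum]

theorem rk_mulVec {R : Type*} [CommRing R] (c ξ : n → R) : rk c *ᵥ ξ = (c ⬝ᵥ ξ) • c := by
  ext i
  simp [rk, mulVec, dotProduct, vecMulVec_apply, mul_sum, sum_mul]
  exact sum_congr rfl fun _ _ => by ring

theorem qf_rk (c ξ : n → ℝ) : qf (rk c) ξ = (c ⬝ᵥ ξ) ^ 2 := by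
  rw [qf, rk_mulVec, dotProduct_smul, dotProduct_comm ξ c, smul_eq_mul, sq]

omit [Fintype n] in
theorem rk_symm (c : n → ℝ) : (rk c).IsSymm := by
  ext i j; simp [rk, vecMulVec_apply, mul_comm]

omit [Fintype n] in
theorem symm_sum {α : Type*} (s : Finset α) (A : α → Matrix n n ℝ) (h : ∀ a ∈ s, (A a).IsSymm) :
    (∑ a ∈ s, A a).IsSymm := by
  rw [IsSymm, transpose_sum]
  exact sum_congr rfl h

theorem PD.psd {N : Matrix n n ℝ} (h : PD N) : PSD N :=
  ⟨h.1, fun ξ => by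
    by_cases h0 : ξ = 0
    · rw [h0, qf_zero]
    · exact (h.2 ξ h0).le⟩

omit [Fintype n] in
theorem herm_of_symm {N : Matrix n n ℝ} (h : N.IsSymm) : N.IsHermitian := by
  rw [IsHermitian, conjTranspose_eq_transpose_of_trivial]; exact h

theorem PD.posDef {N : Matrix n n ℝ} (h : PD N) : N.PosDef :=
  PosDef.of_dotProduct_mulVec_pos (herm_of_symm h.1) fun x hx => by simpa [qf] using h.2 x hx

theorem PSD.posSemidef {N : Matrix n n ℝ} (h : PSD N) : N.PosSemidef :=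
  PosSemidef.of_dotProduct_mulVec_nonneg (herm_of_symm h.1) fun x => by simpa [qf] using h.2 x

theorem PD.det_pos [DecidableEq n] {N : Matrix n n ℝ} (h : PD N) : 0 < N.det := h.posDef.det_pos

theorem symm_dot {N : Matrix n n ℝ} (h : N.IsSymm) (u v : n → ℝ) :
    u ⬝ᵥ N *ᵥ v = v ⬝ᵥ N *ᵥ u := by
  rw [dotProduct_mulVec, dotProduct_comm, ← mulVec_transpose, h.eq]

theorem PSD.cs {N : Matrix n n ℝ} (h : PSD N) (u v : n → ℝ) :
    (u ⬝ᵥ N *ᵥ v) ^ 2 ≤ qf N u * qf N v := by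
  have hq : ∀ t : ℝ, 0 ≤ qf N u * (t * t) + (2 * (u ⬝ᵥ N *ᵥ v)) * t + qf N v := fun t => by
    have := h.2 (t • u + v)
    simp only [qf, mulVec_add, mulVec_smul, add_dotProduct, dotProduct_add, smul_dotProduct,
      dotProduct_smul, smul_eq_mul, symm_dot h.1 v u] at this ⊢
    linarith
  have := discrim_le_zero hq
  rw [discrim] at this
  linarith

variable [DecidableEq n]

theorem PD.mul_inv {N : Matrix n n ℝ} (h : PD N) (b : n → ℝ) : N *ᵥ (N⁻¹ *ᵥ b) = b := by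
  rw [mulVec_mulVec, mul_nonsing_inv _ h.det_pos.ne'.isUnit, one_mulVec]

theorem PD.qf_inv {N : Matrix n n ℝ} (h : PD N) (b : n → ℝ) :
    qf N (N⁻¹ *ᵥ b) = b ⬝ᵥ N⁻¹ *ᵥ b := by
  rw [qf, h.mul_inv, dotProduct_comm]

theorem PD.cs_inv {N : Matrix n n ℝ} (h : PD N) (b f : n → ℝ) :
    (b ⬝ᵥ f) ^ 2 ≤ (b ⬝ᵥ N⁻¹ *ᵥ b) * qf N f := by
  have := h.psd.cs f (N⁻¹ *ᵥ b)
  rw [h.mul_inv, h.qf_inv, dotProduct_comm, mul_comm] at this
  exact this

theorem det_rk {N : Matrix n n ℝ} (h : PD N) (t : ℝ) (c : n → ℝ) :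
    (N + t • rk c).det = N.det * (1 + t * (c ⬝ᵥ N⁻¹ *ᵥ c)) := by
  have e : t • rk c = replicateCol Unit (t • c) * replicateRow Unit c := by
    rw [← vecMulVec_eq]; ext i j; simp [rk, vecMulVec_apply, mul_assoc]
  rw [e, det_add_replicateCol_mul_replicateRow h.det_pos.ne'.isUnit, det_unique (n := Unit)]
  congr 1
  simp [Matrix.mul_apply, dotProduct, mulVec, mul_sum, sum_mul]
  rw [sum_comm]
  exact sum_congr rfl fun _ _ => sum_congr rfl fun _ _ => by ring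

theorem det_affine {R : Type*} [CommRing R] (M : Matrix n n R) (c : n → R) (t : R) :
    (M + t • rk c).det = M.det + t * ((M + rk c).det - M.det) := by
  have key : ∀ t : R, (M + t • rk c).det =
      (updateCol (fromBlocks M 0 (replicateRow Unit c) (1 : Matrix Unit Unit R)) (Sum.inr ())
        (Sum.elim 0 1)).det + t *
      (updateCol (fromBlocks M 0 (replicateRow Unit c) (1 : Matrix Unit Unit R)) (Sum.inr ())
        (Sum.elim (-c) 0)).det := by
    intro t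
    rw [← det_updateCol_smul, ← det_updateCol_add]
    have e : M + t • rk c = M - replicateCol Unit (-(t • c)) * replicateRow Unit c := by
      rw [← vecMulVec_eq]; ext i j; simp [rk, vecMulVec_apply, mul_assoc]
    rw [e, ← det_fromBlocks_one₂₂]
    congr 1
    ext (i | i) (j | j) <;> simp [updateCol_apply]
  have h0 := key 0
  have h1 := key 1
  rw [zero_smul, add_zero] at h0
  rw [one_smul] at h1
  rw [key t, h1, h0]
  ring

theorem le_of_det_ne {N K : Matrix n n ℝ} (hN : PD N) (hK : K.IsSymm) {x : ℝ} (hx : 0 < x)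
    (h : ∀ s : ℝ, 0 ≤ s → s ≤ 1 → (x • N - s • K).det ≠ 0) (ξ : n → ℝ) :
    qf K ξ ≤ x * qf N ξ := by
  by_contra hcon
  push_neg at hcon
  have hξ : ξ ≠ 0 := by rintro rfl; simp [qf_zero] at hcon
  have hc : ∀ A : Matrix n n ℝ, Continuous (qf A) := fun A => by unfold qf; fun_prop
  have hsph : ∀ v : n → ℝ, v ≠ 0 → (‖v‖⁻¹ • v) ∈ Metric.sphere (0 : n → ℝ) 1 := fun v hv => by
    simp [norm_smul, hv]
  have hne : ∀ v ∈ Metric.sphere (0 : n → ℝ) 1, v ≠ 0 := by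
    rintro v hv rfl; simp at hv
  obtain ⟨u, hu, hmax⟩ := (isCompact_sphere (0 : n → ℝ) 1).exists_isMaxOn ⟨_, hsph ξ hξ⟩
    (f := fun v => qf K v / qf N v)
    ((hc K).continuousOn.div (hc N).continuousOn fun v hv => (hN.2 v (hne v hv)).ne')
  obtain ⟨μ, hμ⟩ : ∃ μ, μ = qf K u / qf N u := ⟨_, rfl⟩
  have hle : ∀ v, qf K v ≤ μ * qf N v := by
    intro v
    by_cases hv : v = 0
    · simp [hv, qf_zero]
    have h1 : qf K (‖v‖⁻¹ • v) / qf N (‖v‖⁻¹ • v) ≤ μ := hμ ▸ hmax (hsph v hv)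
    have hn : 0 < ‖v‖⁻¹ ^ 2 := by have := norm_pos_iff.2 hv; positivity
    rw [qf_smul_vec, qf_smul_vec, mul_div_mul_left _ _ hn.ne', div_le_iff₀ (hN.2 v hv)] at h1
    exact h1
  have hxμ : x < μ := lt_of_mul_lt_mul_right (hcon.trans_le (hle ξ)) (hN.2 ξ hξ).le
  have hμ0 : 0 < μ := hx.trans hxμ
  have hP : PSD (μ • N - K) := ⟨(hN.1.smul μ).sub hK, fun v => by
    rw [qf_sub, qf_smul]; linarith [hle v]⟩
  have hz : (μ • N - K) *ᵥ u = 0 := by
    rw [← hP.posSemidef.dotProduct_mulVec_zero_iff]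
    have : qf (μ • N - K) u = 0 := by
      rw [qf_sub, qf_smul, hμ, div_mul_cancel₀ _ (hN.2 u (hne u hu)).ne', sub_self]
    simpa [qf] using this
  refine h (x / μ) (by positivity) ((div_le_one hμ0).2 hxμ.le) ?_
  rw [← exists_mulVec_eq_zero_iff]
  refine ⟨u, hne u hu, ?_⟩
  have e : x • N - (x / μ) • K = (x / μ) • (μ • N - K) := by
    rw [smul_sub, smul_smul, div_mul_cancel₀ _ hμ0.ne']
  rw [e, smul_mulVec, hz, smul_zero]

theorem exists_diag {A : Matrix n n ℝ} (hA : A.IsSymm) :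
    ∃ (v : n → n → ℝ) (μ : n → ℝ), (∀ i, A *ᵥ v i = μ i • v i) ∧
      (∀ i j, v i ⬝ᵥ v j = if i = j then 1 else 0) ∧ ∀ β : n → ℝ, β = ∑ i, (v i ⬝ᵥ β) • v i := by
  have hH := herm_of_symm hA
  refine ⟨fun i => (hH.eigenvectorBasis i).ofLp, hH.eigenvalues,
    fun i => hH.mulVec_eigenvectorBasis i, fun i j => ?_, fun β => ?_⟩
  · have := orthonormal_iff_ite.1 hH.eigenvectorBasis.orthonormal i j
    rw [← this, EuclideanSpace.inner_eq_star_dotProduct, star_trivial, dotProduct_comm]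
  · have := hH.eigenvectorBasis.sum_repr' (WithLp.toLp 2 β)
    have h2 := congrArg WithLp.ofLp this
    rw [WithLp.ofLp_sum] at h2
    refine h2.symm.trans (sum_congr rfl fun i _ => ?_)
    rw [WithLp.ofLp_smul, EuclideanSpace.inner_eq_star_dotProduct, star_trivial, dotProduct_comm]

end Vale.Agent.P061
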