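import Vale.Agent.P061.Barrier
import Vale.Agent.P061.Lin

/-! A two-block form of the Marcus-Spielman-Srivastava partition theorem. -/

namespace Vale.Agent.P061

open Finset Matrix

variable {n : Type*} [Fintype n] [DecidableEq n]

theorem sum_single_smul {ι R : Type*} [Fintype ι] [DecidableEq ι] [CommRing R]
    (A : ι → Matrix n n R) (z : ι → R) (a : ι) (t : R) :
    ∑ b, (z + (Pi.single a t : ι → R)) b • A b = ∑ b, z b • A b + t • A a := by
  simp only [Pi.add_apply, add_smul, sum_add_distrib]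
  congr 1
  rw [sum_eq_single a]
  · simp
  · intro b _ h; simp [h]
  · simp

theorem good_det {ι : Type*} [Fintype ι] [DecidableEq ι] {N : Matrix n n ℝ} (hN : PD N)
    (c : ι → n → ℝ) : Good (fun y : ι → ℝ => (N + ∑ a, y a • rk (c a)).det) := by
  refine ⟨fun z => (N.map (fun r : ℝ => (r : ℂ)) +
    ∑ a, z a • rk (fun i => (c a i : ℂ))).det, ?_, ?_, ?_, ?_⟩
  · exact Continuous.matrix_det (by fun_prop)
  · intro a z t
    simp only [sum_single_smul, ← add_assoc, one_smul]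
    exact det_affine _ _ _
  · intro z hz h0
    obtain ⟨ξ, hξ, h1⟩ := exists_mulVec_eq_zero_iff.2 h0
    have hH : (N.map (fun r : ℝ => (r : ℂ))).IsHermitian := by
      ext i j; simp [hN.1.apply]
    have h2 := congrArg (fun w => (star ξ ⬝ᵥ w).im) h1
    simp only [add_mulVec, sum_mulVec, smul_mulVec, rk_mulVec, dotProduct_add, dotProduct_sum,
      dotProduct_smul, Complex.add_im, dotProduct_zero, Complex.zero_im, Complex.im_sum] at h2
    have h3 : (star ξ ⬝ᵥ (N.map (fun r : ℝ => (r : ℂ))) *ᵥ ξ).im = 0 :=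
      hH.im_star_dotProduct_mulVec_self ξ
    have h4 : ∀ a, (z a • ((fun i => (c a i : ℂ)) ⬝ᵥ ξ) • (star ξ ⬝ᵥ fun i => (c a i : ℂ))).im =
        (z a).im * Complex.normSq ((fun i => (c a i : ℂ)) ⬝ᵥ ξ) := by
      intro a
      have : (star ξ ⬝ᵥ fun i => (c a i : ℂ)) = (starRingEnd ℂ) ((fun i => (c a i : ℂ)) ⬝ᵥ ξ) := by
        simp [dotProduct, mul_comm]
      rw [this, smul_eq_mul, smul_eq_mul, Complex.mul_conj]
      simp
    rw [h3, zero_add, sum_congr rfl fun a _ => h4 a,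
      sum_eq_zero_iff_of_nonneg fun a _ => mul_nonneg (hz a).le (Complex.normSq_nonneg _)] at h2
    have h5 : ∀ a, (fun i => (c a i : ℂ)) ⬝ᵥ ξ = 0 := fun a =>
      Complex.normSq_eq_zero.1 ((mul_eq_zero.1 (h2 a (mem_univ a))).resolve_left (hz a).ne')
    simp only [add_mulVec, sum_mulVec, smul_mulVec, rk_mulVec, h5, zero_smul, smul_zero,
      sum_const_zero, add_zero] at h1
    have h6 := exists_mulVec_eq_zero_iff.1 ⟨ξ, hξ, h1⟩
    have h7 := Complex.ofRealHom.map_det N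
    rw [RingHom.mapMatrix_apply] at h7
    have h8 : ((N.det : ℝ) : ℂ) = 0 := h7.trans h6
    exact hN.det_pos.ne' (by exact_mod_cast h8)
  · intro y
    have h7 := Complex.ofRealHom.map_det (N + ∑ a, y a • rk (c a))
    refine Eq.trans (congrArg det ?_) h7.symm
    ext i j
    simp [rk, Matrix.sum_apply, vecMulVec_apply]

theorem ks_det {E : Type*} [Fintype E] [DecidableEq E] {N : Matrix n n ℝ} (hN : PD N)
    (c : E × Bool → n → ℝ) {ε : ℝ} (hε : 0 < ε) (hε1 : ε ≤ 1 / 2)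
    (hsum : ∀ ξ, ∑ a, (c a ⬝ᵥ ξ) ^ 2 ≤ qf N ξ) (hc : ∀ a ξ, (c a ⬝ᵥ ξ) ^ 2 ≤ ε ^ 2 * qf N ξ) :
    ∃ σ : E → Bool, ∀ ξ, ∑ e, (c (e, σ e) ⬝ᵥ ξ) ^ 2 ≤ (1 / 2 + 2 * ε) * qf N ξ := by
  obtain ⟨x, hx⟩ : ∃ x, x = 1 / 2 + 2 * ε := ⟨_, rfl⟩
  obtain ⟨δ, hδ⟩ : ∃ δ, δ = 1 / 2 + ε := ⟨_, rfl⟩
  have hx0 : 0 < x := by linarith
  have hδ0 : 0 < δ := by linarith
  have hxN : PD (x • N) := ⟨hN.1.smul x, fun ξ h => by rw [qf_smul]; exact mul_pos hx0 (hN.2 ξ h)⟩
  have hg := good_det hxN c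
  have hlow : ∀ y : E × Bool → ℝ, (fun _ => -δ) ≤ y → ∀ ξ,
      ε * qf N ξ ≤ qf (x • N + ∑ a, y a • rk (c a)) ξ := by
    intro y hy ξ
    rw [qf_add, qf_smul, qf_sum]
    simp only [qf_smul, qf_rk]
    have : ∑ a, -δ * (c a ⬝ᵥ ξ) ^ 2 ≤ ∑ a, y a * (c a ⬝ᵥ ξ) ^ 2 :=
      sum_le_sum fun a _ => mul_le_mul_of_nonneg_right (hy a) (sq_nonneg _)
    rw [← mul_sum] at this
    have h2 := mul_le_mul_of_nonneg_left (hsum ξ) hδ0.le
    have e : x = δ + ε := by linarith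
    rw [e]; linarith
  have hpd : ∀ y : E × Bool → ℝ, (fun _ => -δ) ≤ y → PD (x • N + ∑ a, y a • rk (c a)) :=
    fun y hy => ⟨hxN.1.add (symm_sum _ _ fun a _ => (rk_symm _).smul _),
      fun ξ h => (mul_pos hε (hN.2 ξ h)).trans_le (hlow y hy ξ)⟩
  have hdd : ∀ a, dd (fun y : E × Bool → ℝ => (x • N + ∑ a, y a • rk (c a)).det) a
      (fun _ => -δ) / (x • N + ∑ a, (-δ) • rk (c a)).det ≤ ε := by
    intro a
    have hp := hpd _ le_rfl
    simp only [dd, sum_single_smul, ← add_assoc]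
    rw [det_rk hp, div_le_iff₀ hp.det_pos]
    have h1 := hlow _ le_rfl ((x • N + ∑ a, (-δ) • rk (c a))⁻¹ *ᵥ c a)
    have h2 := hc a ((x • N + ∑ a, (-δ) • rk (c a))⁻¹ *ᵥ c a)
    rw [hp.qf_inv] at h1
    generalize c a ⬝ᵥ (x • N + ∑ a, (-δ) • rk (c a))⁻¹ *ᵥ c a = s at *
    have h3 : s ≤ ε := by
      by_contra h
      push_neg at h
      nlinarith [mul_le_mul_of_nonneg_left h1 hε.le]
    nlinarith [hp.det_pos]
  obtain ⟨σ, hσ⟩ := hg.ks hδ0 (fun y hy => (hpd y hy).det_pos) (fun e => by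
    have h1 := hdd (e, false)
    have h2 := hdd (e, true)
    have h3 : 1 / δ ≤ 2 - 2 * ε := by
      rw [div_le_iff₀ hδ0, hδ]; nlinarith
    linarith)
  refine ⟨σ, fun ξ => ?_⟩
  have h := le_of_det_ne hN (K := ∑ e, rk (c (e, σ e))) (symm_sum _ _ fun e _ => rk_symm _) hx0
    (fun s hs0 hs1 => ?_) ξ
  · rw [qf_sum] at h
    simpa only [qf_rk, hx] using h
  · have := hσ (fun a => if σ a.1 = a.2 then -s else 0) fun a => by
      dsimp only; split_ifs <;> linarith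
    refine fun h0 => this.ne' (Eq.trans ?_ h0)
    dsimp only
    congr 1
    rw [sub_eq_add_neg, ← neg_smul, smul_sum, Fintype.sum_prod_type]
    congr 1
    refine sum_congr rfl fun e _ => ?_
    rw [Fintype.sum_bool]
    cases σ e <;> simp

end Vale.Agent.P061
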