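import Vale.Agent.P061.Step

/-! The ball packing inequality along a chain of partitions. -/

namespace Vale.Agent.P061

open Finset

variable {V α E : Type*} [Fintype V] [DecidableEq V] [DecidableEq α] [DecidableEq E]
  {d : V → V → ℕ} {s t : E → V}

omit [DecidableEq E] in
theorem term_le (hd : IsPM d) {T : Finset (Item V)} {ρ : ℕ} (h : Inv d T ρ) (G : Finset E)
    {θ : ℝ} (U : Finset V) (E0 : Finset E)
    (h1 : ∀ i ∈ T, θ ≤ (cr s t E0 U (Ins d i)).card)
    (h2 : ∀ i ∈ T, cr s t E0 U (Ins d i) ⊆ G) :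
    θ * T.card ≤ 7 * ∑ e ∈ G, (d (s e) (t e) : ℝ) := by
  classical
  have a : ∑ i ∈ T, (cr s t E0 U (Ins d i)).card ≤ ∑ e ∈ G, 7 * d (s e) (t e) := by
    calc _ ≤ ∑ i ∈ T, (G.filter fun e => Ins d i (s e) ≠ Ins d i (t e)).card :=
          sum_le_sum fun i hi => card_le_card fun e he =>
            mem_filter.2 ⟨h2 i hi he, ((mem_cr s t).1 he).2.2.2⟩
      _ = ∑ e ∈ G, (T.filter fun i => Ins d i (s e) ≠ Ins d i (t e)).card := by
          simp only [card_filter]; exact sum_comm
      _ ≤ _ := sum_le_sum fun e _ => by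
          have := h.sepa_le hd (s e) (t e)
          unfold sepa at this
          convert this
  have b := (Nat.cast_le (α := ℝ)).2 a
  push_cast at b
  rw [mul_sum]
  refine le_trans ?_ b
  rw [card_eq_sum_ones, Nat.cast_sum, mul_sum]
  exact sum_le_sum fun i hi => by simpa using h1 i hi

/-- fibre of a labelling -/
def fib (q : V → α) (u : α) : Finset V := univ.filter fun y => q y = u

theorem mem_fib {q : V → α} {u : α} {y : V} : y ∈ fib q u ↔ q y = u := by simp [fib]

theorem pack (hd : IsPM d) (E0 : Finset E) {θ : ℝ} (hθ : 0 ≤ θ) (q : ℕ → V → α)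
    (href : ∀ j x y, q j x = q j y → q (j + 1) x = q (j + 1) y)
    (conn : ∀ j u (p : V → Prop) x y, x ∈ fib (q j) u → y ∈ fib (q j) u → p x → ¬p y →
      θ ≤ (cr s t E0 (fib (q j) u) p).card)
    (r : ℕ → ℕ) (L : ℕ) (hr0 : ∀ j, 0 < r j) (hsep : ∀ j, 2 * ((L + 6) * r j) ≤ r (j + 1))
    (B : ℕ → Finset E) (hB : ∀ j, ∀ e ∈ B j, q j (s e) ≠ q j (t e) ∧
      q (j + 1) (s e) = q (j + 1) (t e) ∧ d (s e) (t e) ≤ L * r j) (j : ℕ) :
    ∀ (u : α) (T : Finset (Item V)), Inv d T (r j) → (∀ i ∈ T, Splits d i (fib (q j) u)) →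
      ∃ Z : ℕ → Finset V, (∀ i < j, ∀ e ∈ B i, s e ∈ fib (q j) u →
        (∃ z ∈ Z i, d (s e) z < 4 * r i) ∧ ∃ z ∈ Z i, d (t e) z < 4 * r i) ∧
      θ * ((2 * L + 14) * T.card + ∑ i ∈ range j, (r i : ℝ) * (Z i).card) ≤
        7 * (2 * L + 14) * ∑ e ∈ E0.filter (fun e => s e ∈ fib (q j) u ∧ t e ∈ fib (q j) u),
          (d (s e) (t e) : ℝ) +
        θ * (2 * L + 14) ^ 2 * ∑ i ∈ range j, (r i : ℝ) * ((fib (q j) u).image (q i)).card := by
  classical
  have hκ : (0 : ℝ) ≤ 2 * L + 14 := by positivity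
  induction j with
  | zero =>
    intro u T hT hsp
    refine ⟨fun _ => ∅, by simp, ?_⟩
    have := term_le hd hT (E0.filter (fun e => s e ∈ fib (q 0) u ∧ t e ∈ fib (q 0) u))
      (fib (q 0) u) E0 (θ := θ) (s := s) (t := t) (fun i hi => by
        obtain ⟨⟨x, hx, hx'⟩, y, hy, hy'⟩ := hsp i hi
        exact conn 0 u _ x y hx hy hx' hy') fun i _ e he => by
        rw [mem_cr] at he
        exact mem_filter.2 ⟨he.1, he.2.1, he.2.2.1⟩
    simp only [range_zero, sum_empty, add_zero, mul_zero]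
    nlinarith [mul_le_mul_of_nonneg_left this hκ]
  | succ j ih =>
    intro u T hT hsp
    obtain ⟨U, hU⟩ : ∃ U, U = fib (q (j + 1)) u := ⟨_, rfl⟩
    rw [← hU] at hsp ⊢
    have hmU : ∀ y, y ∈ U ↔ q (j + 1) y = u := fun y => by rw [hU, mem_fib]
    have hch : ∀ v ∈ U.image (q j), (U.filter fun y => q j y = v) = fib (q j) v := by
      intro v hv
      obtain ⟨x, hx, rfl⟩ := mem_image.1 hv
      ext y
      rw [mem_filter, mem_fib, hmU]
      exact ⟨fun h => h.2, fun h => ⟨(href j _ _ h).trans ((hmU x).1 hx), h⟩⟩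
    let p : Item V → Prop := fun i => ∃ v, Splits d i (U.filter fun y => q j y = v)
    obtain ⟨T', Z0, h1, h2, h3⟩ := step_comb hd U (q j) (hT.subset (filter_subset p T))
      (fun i hi => (mem_filter.1 hi).2) (hr0 j) (hsep j) ((B j).filter fun e => s e ∈ U)
      (s := s) (t := t) fun e he => by
        rw [mem_filter] at he
        obtain ⟨a, b, c⟩ := hB j e he.1
        exact ⟨he.2, (hmU _).2 (b.symm.trans ((hmU _).1 he.2)), a, c⟩
    have h4 := term_le hd (hT.subset (filter_subset (fun i => ¬p i) T)) (cr s t E0 U (q j))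
      U E0 (θ := θ) (s := s) (t := t) (fun i hi => by
        obtain ⟨⟨x, hx, hx'⟩, y, hy, hy'⟩ := hsp i (mem_filter.1 hi).1
        rw [hU] at hx hy ⊢
        exact conn _ u _ x y hx hy hx' hy') fun i hi e he => by
        rw [mem_cr] at he ⊢
        refine ⟨he.1, he.2.1, he.2.2.1, fun h => (mem_filter.1 hi).2 ⟨q j (s e), ?_⟩⟩
        have a : s e ∈ U.filter fun y => q j y = q j (s e) := mem_filter.2 ⟨he.2.1, rfl⟩
        have b : t e ∈ U.filter fun y => q j y = q j (s e) := mem_filter.2 ⟨he.2.2.1, h.symm⟩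
        by_cases c : Ins d i (s e)
        · exact ⟨⟨_, a, c⟩, _, b, fun c' => he.2.2.2 (propext ⟨fun _ => c', fun _ => c⟩)⟩
        · refine ⟨⟨_, b, ?_⟩, _, a, c⟩
          by_contra c'
          exact he.2.2.2 (propext ⟨fun h => absurd h c, fun h => absurd h c'⟩)
    have h5 : ∀ v, ∃ Z : ℕ → Finset V, v ∈ U.image (q j) →
        (∀ i < j, ∀ e ∈ B i, s e ∈ fib (q j) v →
          (∃ z ∈ Z i, d (s e) z < 4 * r i) ∧ ∃ z ∈ Z i, d (t e) z < 4 * r i) ∧
        θ * ((2 * L + 14) * (T' v).card + ∑ i ∈ range j, (r i : ℝ) * (Z i).card) ≤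
          7 * (2 * L + 14) * ∑ e ∈ E0.filter (fun e => s e ∈ fib (q j) v ∧ t e ∈ fib (q j) v),
            (d (s e) (t e) : ℝ) +
          θ * (2 * L + 14) ^ 2 * ∑ i ∈ range j, (r i : ℝ) * ((fib (q j) v).image (q i)).card := by
      intro v
      by_cases hv : v ∈ U.image (q j)
      · obtain ⟨Z, hZ⟩ := ih v (T' v) (h1 v).1 (hch v hv ▸ (h1 v).2)
        exact ⟨Z, fun _ => hZ⟩
      · exact ⟨fun _ => ∅, fun h => absurd h hv⟩
    choose Z hZ using h5
    refine ⟨fun i => if i = j then Z0 else (U.image (q j)).biUnion fun v => Z v i, ?_, ?_⟩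
    · intro i hi e he hs
      by_cases hij : i = j
      · subst hij
        simpa using h2 e (mem_filter.2 ⟨he, hs⟩)
      · have hv := mem_image_of_mem (q j) hs
        obtain ⟨⟨z, hz, hz'⟩, w, hw, hw'⟩ := (hZ _ hv).1 i (by omega) e he (mem_fib.2 rfl)
        simp only [if_neg hij]
        exact ⟨⟨z, mem_biUnion.2 ⟨_, hv, hz⟩, hz'⟩, w, mem_biUnion.2 ⟨_, hv, hw⟩, hw'⟩
    · have a1 := sum_le_sum fun v hv => (hZ v hv).2
      have a2 : ∑ i ∈ range (j + 1), (r i : ℝ) *
          (if i = j then Z0 else (U.image (q j)).biUnion fun v => Z v i).card ≤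
          ∑ v ∈ U.image (q j), ∑ i ∈ range j, (r i : ℝ) * (Z v i).card + r j * Z0.card := by
        rw [sum_range_succ, if_pos rfl, sum_comm]
        refine add_le_add_left (sum_le_sum fun i hi => ?_) _
        rw [if_neg (mem_range.1 hi).ne, ← mul_sum]
        exact mul_le_mul_of_nonneg_left (by exact_mod_cast card_biUnion_le) (by positivity)
      have hmono : ∀ i k x y, q i x = q i y → q (i + k) x = q (i + k) y := by
        intro i k x y h
        induction k with
        | zero => exact h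
        | succ k ihk => exact href _ _ _ ihk
      have a3 : ∑ v ∈ U.image (q j), ∑ i ∈ range j, (r i : ℝ) * ((fib (q j) v).image (q i)).card
          ≤ ∑ i ∈ range j, (r i : ℝ) * (U.image (q i)).card := by
        rw [sum_comm]
        refine sum_le_sum fun i hi => ?_
        rw [← mul_sum]
        refine mul_le_mul_of_nonneg_left ?_ (by positivity)
        rw [← Nat.cast_sum, ← card_biUnion]
        · refine Nat.cast_le.2 (card_le_card fun a ha => ?_)
          obtain ⟨v, hv, ha⟩ := mem_biUnion.1 ha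
          rw [← hch v hv] at ha
          exact image_subset_image (filter_subset _ _) ha
        · intro v _ w _ hvw
          refine disjoint_left.2 fun a ha hb => hvw ?_
          obtain ⟨x, hx, rfl⟩ := mem_image.1 ha
          obtain ⟨y, hy, hxy⟩ := mem_image.1 hb
          have := hmono i (j - i) _ _ hxy
          rw [Nat.add_sub_cancel' (mem_range.1 hi).le] at this
          rw [← mem_fib.1 hx, ← mem_fib.1 hy, this]
      have a4 : ∑ v ∈ U.image (q j), ∑ e ∈ E0.filter
          (fun e => s e ∈ fib (q j) v ∧ t e ∈ fib (q j) v), (d (s e) (t e) : ℝ) +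
          ∑ e ∈ cr s t E0 U (q j), (d (s e) (t e) : ℝ) ≤
          ∑ e ∈ E0.filter (fun e => s e ∈ U ∧ t e ∈ U), (d (s e) (t e) : ℝ) := by
        rw [← sum_biUnion, ← sum_union]
        · refine sum_le_sum_of_subset_of_nonneg (fun e he => ?_) fun _ _ _ => by positivity
          rcases mem_union.1 he with he | he
          · obtain ⟨v, hv, he⟩ := mem_biUnion.1 he
            rw [← hch v hv] at he
            simp only [mem_filter] at he ⊢
            exact ⟨he.1, he.2.1.1, he.2.2.1⟩
          · rw [mem_cr] at he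
            exact mem_filter.2 ⟨he.1, he.2.1, he.2.2.1⟩
        · refine disjoint_left.2 fun e h1 h2 => ?_
          obtain ⟨v, -, he⟩ := mem_biUnion.1 h1
          simp only [mem_filter, mem_fib] at he
          exact ((mem_cr s t).1 h2).2.2.2 (he.2.1.trans he.2.2.symm)
        · intro v _ w _ hvw
          refine disjoint_left.2 fun e h1 h2 => hvw ?_
          simp only [mem_filter, mem_fib] at h1 h2
          exact h1.2.1.symm.trans h2.2.1
      have a5 := (Nat.cast_le (α := ℝ)).2 h3
      have a6 := congrArg (Nat.cast : ℕ → ℝ) (card_filter_add_card_filter_not (s := T) p)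
      push_cast at a5 a6
      simp only [sum_add_distrib, mul_add θ, ← mul_sum] at a1
      rw [sum_range_succ (fun i => (r i : ℝ) * (U.image (q i)).card)]
      have b2 := mul_le_mul_of_nonneg_left a2 hθ
      have b3 := mul_le_mul_of_nonneg_left a3 (mul_nonneg hθ (sq_nonneg (2 * (L : ℝ) + 14)))
      have b4 := mul_le_mul_of_nonneg_left a4 hκ
      have b5 := mul_le_mul_of_nonneg_left a5 hθ
      have b6 := mul_le_mul_of_nonneg_left h4 hκ
      rw [← a6]
      linarith

end Vale.Agent.P061
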