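import Mathlib

/-! Partition connectivity and the canonical partition into maximal connected pieces. -/

namespace Vale.Agent.P061

open Finset

variable {V E : Type*} [Fintype V] [DecidableEq V] (s t : E → V)

open Classical in
/-- edges of `F` inside `U` joining different labels -/
noncomputable def cr {α : Type*} (F : Finset E) (U : Finset V) (q : V → α) : Finset E :=
  F.filter fun e => s e ∈ U ∧ t e ∈ U ∧ q (s e) ≠ q (t e)

theorem mem_cr {α : Type*} {F : Finset E} {U : Finset V} {q : V → α} {e : E} :
    e ∈ cr s t F U q ↔ e ∈ F ∧ s e ∈ U ∧ t e ∈ U ∧ q (s e) ≠ q (t e) := by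
  simp [cr]

/-- partition connectivity -/
def PC (F : Finset E) (U : Finset V) (θ : ℝ) : Prop :=
  ∀ q : V → V, θ * (((U.image q).card : ℝ) - 1) ≤ (cr s t F U q).card

theorem exists_relabel {α : Type*} [DecidableEq α] (q : V → α) :
    ∃ q' : V → V, (∀ x y, q' x = q' y ↔ q x = q y) ∧
      ∀ U : Finset V, (U.image q').card = (U.image q).card := by
  rcases isEmpty_or_nonempty V with h | h
  · exact ⟨id, fun x => isEmptyElim x, fun U => by simp [Finset.eq_empty_of_isEmpty U]⟩
  have h1 : ∀ x, q (Function.invFun q (q x)) = q x := fun x => Function.invFun_eq ⟨x, rfl⟩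
  refine ⟨fun x => Function.invFun q (q x), fun x y => ⟨fun h => ?_, fun h => congrArg _ h⟩,
    fun U => ?_⟩
  · rw [← h1 x, ← h1 y]; exact congrArg q h
  · rw [show (fun x => Function.invFun q (q x)) = Function.invFun q ∘ q from rfl, ← image_image]
    refine card_image_of_injOn fun a ha b hb h => ?_
    obtain ⟨x, -, rfl⟩ := mem_image.1 ha
    obtain ⟨y, -, rfl⟩ := mem_image.1 hb
    rw [← h1 x, ← h1 y, h]

variable {s t}

theorem cr_congr {α β : Type*} {q : V → α} {q' : V → β} (h : ∀ x y, q' x = q' y ↔ q x = q y)
    (F : Finset E) (U : Finset V) : cr s t F U q' = cr s t F U q := by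
  ext e; simp [mem_cr, h]

theorem PC.any {F : Finset E} {U : Finset V} {θ : ℝ} (h : PC s t F U θ) {α : Type*}
    [DecidableEq α] (q : V → α) : θ * (((U.image q).card : ℝ) - 1) ≤ (cr s t F U q).card := by
  obtain ⟨q', h1, h2⟩ := exists_relabel q
  rw [← h2, ← cr_congr h1]
  exact h q'

theorem PC.mono {F F' : Finset E} {U : Finset V} {θ : ℝ} (h : PC s t F U θ) (hF : F ⊆ F') :
    PC s t F' U θ := fun q => (h q).trans (by
  exact_mod_cast card_le_card fun e he => by
    rw [mem_cr] at he ⊢; exact ⟨hF he.1, he.2⟩)

theorem PC.le {F : Finset E} {U : Finset V} {θ θ' : ℝ} (h : PC s t F U θ) (hU : U.Nonempty)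
    (hθ : θ' ≤ θ) : PC s t F U θ' := fun q => le_trans (mul_le_mul_of_nonneg_right hθ (by
  have : 1 ≤ (U.image q).card := card_pos.2 (hU.image q)
  exact sub_nonneg.2 (by exact_mod_cast this))) (h q)

theorem PC.cut {F : Finset E} {U : Finset V} {θ : ℝ} (h : PC s t F U θ) (p : V → Prop)
    {x y : V} (hx : x ∈ U) (hy : y ∈ U) (px : p x) (py : ¬p y) : θ ≤ (cr s t F U p).card := by
  classical
  have h1 := h.any p
  have h2 : U.image p = {True, False} := by
    ext a
    simp only [mem_image, mem_insert, mem_singleton]
    constructor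
    · rintro ⟨z, -, rfl⟩; by_cases hz : p z <;> simp [hz]
    · rintro (rfl | rfl)
      · exact ⟨x, hx, by simp [px]⟩
      · exact ⟨y, hy, by simp [py]⟩
  rw [h2, card_pair (by simp)] at h1
  push_cast at h1
  linarith

variable (s t)

/-- lying in a common partition-connected set -/
def Rel (F : Finset E) (θ : ℝ) (x y : V) : Prop := ∃ U, PC s t F U θ ∧ x ∈ U ∧ y ∈ U

theorem Rel.mono {F F' : Finset E} {θ : ℝ} {x y : V} (h : Rel s t F θ x y) (hF : F ⊆ F') :
    Rel s t F' θ x y := by
  obtain ⟨U, h1, h2⟩ := h
  exact ⟨U, h1.mono hF, h2⟩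

theorem exists_min [Nonempty V] (F : Finset E) {θ : ℝ} (hθ : 0 ≤ θ) :
    ∃ P : V → V, (∀ x y, Rel s t F θ x y ↔ P x = P y) ∧
      (∀ x, PC s t F (univ.filter fun y => P y = P x) θ) ∧
      ((cr s t F univ P).card : ℝ) ≤ θ * (((univ.image P).card : ℝ) - 1) := by
  classical
  let g : (V → V) → ℝ := fun q => (cr s t F univ q).card - θ * (univ.image q).card
  obtain ⟨P0, -, hP0⟩ := exists_min_image univ g univ_nonempty
  obtain ⟨P, hP1, hP2⟩ := exists_min_image (univ.filter fun q => g q = g P0)
    (fun q => (univ.image q).card) ⟨P0, by simp⟩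
  have hP : ∀ q, g P ≤ g q := fun q => (mem_filter.1 hP1).2 ▸ hP0 q (mem_univ q)
  have hfib : ∀ x, PC s t F (univ.filter fun y => P y = P x) θ := by
    intro x q
    obtain ⟨q', h1, h2⟩ := exists_relabel
      (fun y => if P y = P x then (Sum.inl (q y) : V ⊕ V) else Sum.inr (P y))
    have h3 := hP q'
    simp only [g] at h3
    rw [h2, cr_congr h1] at h3
    have h4 : (cr s t F univ fun y => if P y = P x then (Sum.inl (q y) : V ⊕ V)
        else Sum.inr (P y)).card ≤ (cr s t F univ P).card +
        (cr s t F (univ.filter fun y => P y = P x) q).card := by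
      refine le_trans (card_le_card fun e he => ?_) (card_union_le _ _)
      simp only [mem_cr, mem_union, mem_filter, mem_univ, true_and] at he ⊢
      by_cases a : P (s e) = P x <;> by_cases b : P (t e) = P x <;> simp_all
      exact fun h => b h.symm
    have h5 : ((univ.filter fun y => P y = P x).image q).card + ((univ.image P).card - 1) ≤
        (univ.image fun y => if P y = P x then (Sum.inl (q y) : V ⊕ V)
          else Sum.inr (P y)).card := by
      rw [← card_erase_of_mem (mem_image_of_mem P (mem_univ x)), ← card_disjSum]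
      refine card_le_card ?_
      rintro (a | a) ha
      · rw [inl_mem_disjSum, mem_image] at ha
        obtain ⟨y, hy, rfl⟩ := ha
        exact mem_image.2 ⟨y, mem_univ y, by simp [(mem_filter.1 hy).2]⟩
      · rw [inr_mem_disjSum, mem_erase, mem_image] at ha
        obtain ⟨h, y, -, rfl⟩ := ha
        exact mem_image.2 ⟨y, mem_univ y, by simp [h]⟩
    have h6 : 1 ≤ (univ.image P).card := card_pos.2 (univ_nonempty.image P)
    have h7 := (Nat.cast_le (α := ℝ)).2 h5
    have h8 := (Nat.cast_le (α := ℝ)).2 h4
    rw [Nat.cast_add, Nat.cast_sub h6] at h7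
    push_cast at h7 h8
    nlinarith [mul_le_mul_of_nonneg_left h7 hθ]
  refine ⟨P, fun x y => ⟨?_, fun h => ⟨_, hfib x, by simp, by simp [h]⟩⟩, hfib, ?_⟩
  · rintro ⟨U, hU, hx, hy⟩
    let q : V → V := fun z => if P z ∈ U.image P then P x else P z
    have hsub : U.image P ⊆ univ.image P := image_subset_image (subset_univ U)
    have hxU : P x ∈ U.image P := mem_image_of_mem P hx
    have h1 : univ.image q = insert (P x) (univ.image P \ U.image P) := by
      ext a
      simp only [mem_insert, mem_sdiff]
      constructor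
      · intro ha
        obtain ⟨z, -, rfl⟩ := mem_image.1 ha
        by_cases hz : P z ∈ U.image P
        · left; simp only [q, if_pos hz]
        · right; simp only [q, if_neg hz]; exact ⟨mem_image_of_mem P (mem_univ z), hz⟩
      · rintro (rfl | ⟨ha, ha'⟩)
        · exact mem_image.2 ⟨x, mem_univ x, by simp only [q, if_pos hxU]⟩
        · obtain ⟨z, -, rfl⟩ := mem_image.1 ha
          exact mem_image.2 ⟨z, mem_univ z, by simp only [q, if_neg ha']⟩
    have h2 : (univ.image q).card + (U.image P).card = (univ.image P).card + 1 := by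
      rw [h1, card_insert_of_notMem (by simp [hxU]), ← card_sdiff_add_card_eq_card hsub]
      ring
    have h3 : (cr s t F univ q).card + (cr s t F U P).card ≤ (cr s t F univ P).card := by
      rw [← card_union_of_disjoint]
      · refine card_le_card fun e he => ?_
        simp only [mem_cr, mem_union, mem_univ, true_and] at he ⊢
        rcases he with he | he
        · exact ⟨he.1, fun h => he.2 (by simp only [q, h])⟩
        · exact ⟨he.1, he.2.2.2⟩
      · refine disjoint_left.2 fun e h1 h2 => ?_
        rw [mem_cr] at h1 h2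
        exact h1.2.2.2 (by
          simp only [q, if_pos (mem_image_of_mem P h2.2.1), if_pos (mem_image_of_mem P h2.2.2.1)])
    have h2' := congrArg (Nat.cast : ℕ → ℝ) h2
    have h3' := (Nat.cast_le (α := ℝ)).2 h3
    push_cast at h2' h3'
    have h4 : g q = g P0 := by
      refine le_antisymm ?_ (hP0 q (mem_univ q))
      rw [← (mem_filter.1 hP1).2]
      have := hU P
      simp only [g]
      rw [show ((univ.image q).card : ℝ) = (univ.image P).card + 1 - (U.image P).card by linarith]
      linarith
    have h5 := hP2 q (by simp [h4])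
    have h6 : (U.image P).card ≤ 1 := by omega
    exact card_le_one.1 h6 _ hxU _ (mem_image_of_mem P hy)
  · obtain ⟨x⟩ := ‹Nonempty V›
    have h1 := hP fun _ => x
    simp only [g] at h1
    have h2 : cr s t F univ (fun _ => x) = ∅ := by ext e; simp [mem_cr]
    rw [h2, image_const univ_nonempty] at h1
    simp at h1
    linarith

end Vale.Agent.P061
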