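import Vale.Agent.P061.Lin
import Vale.Agent.P061.Part

/-! Edge weights with uniformly small leverage scores. -/

namespace Vale.Agent.P061

open Finset Matrix Module Submodule

variable {V : Type*} [Fintype V] [DecidableEq V]

omit [Fintype V] [DecidableEq V] in
theorem greedy {ι : Type*} [Fintype ι] [DecidableEq ι] (v : ι → V → ℝ) (A : Finset ι) (J : ι → ℕ)
    (M : ℕ) : ∃ B : Finset ι, (∀ i ∈ B, i ∈ A ∧ J i < M) ∧ LinearIndepOn ℝ v B ∧
      ∀ m < M, ∀ i ∈ A, J i ≤ m → v i ∈ span ℝ (v '' (B.filter fun i => J i ≤ m)) := by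
  induction M with
  | zero => exact ⟨∅, by simp, by simp, by simp⟩
  | succ M ih =>
    obtain ⟨B, h1, h2, h3⟩ := ih
    obtain ⟨b, a1, a2, a3, a4⟩ := exists_linearIndepOn_extension (t := {i | i ∈ A ∧ J i < M + 1}) h2
      fun i hi => ⟨(h1 i hi).1, (h1 i hi).2.trans (Nat.lt_succ_self M)⟩
    refine ⟨(Set.toFinite b).toFinset, fun i hi => a1 (by simpa using hi), by simpa using a4,
      fun m hm i hi hJ => ?_⟩
    rcases Nat.lt_succ_iff_lt_or_eq.1 hm with hm | rfl
    · refine span_mono (Set.image_mono fun k hk => ?_) (h3 m hm i hi hJ)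
      simp only [coe_filter, Set.mem_setOf_eq, Set.Finite.mem_toFinset] at hk ⊢
      exact ⟨a2 hk.1, hk.2⟩
    · refine span_mono (Set.image_mono fun k hk => ?_) (a3 ⟨i, ⟨hi, Nat.lt_succ_of_le hJ⟩, rfl⟩)
      simp only [coe_filter, Set.mem_setOf_eq, Set.Finite.mem_toFinset]
      exact ⟨hk, Nat.lt_succ_iff.1 (a1 hk).2⟩

theorem exists_label [Nonempty V] (W : Submodule ℝ (V → ℝ)) (h1 : (1 : V → ℝ) ∈ W) :
    ∃ q : V → V, (∀ x y, (Pi.single x 1 - Pi.single y 1 : V → ℝ) ∈ W → q x = q y) ∧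
      Fintype.card V + 1 ≤ finrank ℝ W + (univ.image q).card := by
  classical
  obtain ⟨q, hq, -⟩ := exists_relabel fun x : V => W.mkQ (Pi.single x 1)
  have hq' : ∀ x y, q x = q y ↔ (Pi.single x 1 - Pi.single y 1 : V → ℝ) ∈ W := fun x y => by
    rw [hq, mkQ_apply, mkQ_apply, Submodule.Quotient.eq]
  refine ⟨q, fun x y => (hq' x y).2, ?_⟩
  obtain ⟨x0⟩ := ‹Nonempty V›
  let g : V → V → ℝ := fun r => Pi.single (Function.invFun q r) 1 - Pi.single x0 1
  let W' := W ⊔ span ℝ (((univ.image q).erase (q x0)).image g : Set (V → ℝ))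
  have h2 : ∀ x, (Pi.single x 1 - Pi.single x0 1 : V → ℝ) ∈ W' := by
    intro x
    by_cases h : q x = q x0
    · exact mem_sup_left ((hq' _ _).1 h)
    · have a : (Pi.single x 1 - Pi.single (Function.invFun q (q x)) 1 : V → ℝ) ∈ W :=
        (hq' _ _).1 (Function.invFun_eq ⟨x, rfl⟩).symm
      have b : g (q x) ∈ W' := mem_sup_right (subset_span (by
        simp only [coe_image]
        exact ⟨q x, by simp [h], rfl⟩))
      simpa [g] using W'.add_mem (mem_sup_left a) b
  have h3 : (Pi.single x0 1 : V → ℝ) ∈ W' := by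
    have a := W'.sub_mem (mem_sup_left h1) (W'.sum_mem fun x (_ : x ∈ univ) => h2 x)
    have e : (1 : V → ℝ) - ∑ x, (Pi.single x 1 - Pi.single x0 1 : V → ℝ) =
        (Fintype.card V : ℝ) • Pi.single x0 1 := by
      ext y; simp [Finset.sum_apply, Pi.single_apply]
    rw [e] at a
    exact (W'.smul_mem_iff (by exact_mod_cast Fintype.card_ne_zero)).1 a
  have h4 : W' = ⊤ := by
    rw [eq_top_iff]
    intro f _
    rw [pi_eq_sum_univ' f]
    refine W'.sum_mem fun x _ => W'.smul_mem _ ?_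
    simpa using W'.add_mem (h2 x) h3
  have h5 := finrank_add_le_finrank_add_finrank W
    (span ℝ (((univ.image q).erase (q x0)).image g : Set (V → ℝ)))
  have h6 : finrank ℝ W' = Fintype.card V := by rw [h4, finrank_top, finrank_pi]
  have h7 := (finrank_span_finset_le_card (R := ℝ) (((univ.image q).erase (q x0)).image g)).trans
    card_image_le
  have h8 := card_erase_add_one (mem_image_of_mem q (mem_univ x0))
  rw [Set.finrank] at h7
  change finrank ℝ W' ≤ _ at h5
  omega

theorem det_add_le {ι : Type*} {A : Matrix V V ℝ} (hA : PD A) (S : Finset ι) (w : ι → ℝ)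
    (hw : ∀ i, 0 ≤ w i) (v : ι → V → ℝ) :
    PD (A + ∑ i ∈ S, w i • rk (v i)) ∧ A.det ≤ (A + ∑ i ∈ S, w i • rk (v i)).det := by
  classical
  induction S using Finset.induction_on with
  | empty => simpa using hA
  | insert a S ha ih =>
    rw [sum_insert ha, add_comm (w a • _), ← add_assoc]
    refine ⟨⟨ih.1.1.add ((rk_symm _).smul _), fun ξ h => ?_⟩, ih.2.trans ?_⟩
    · rw [qf_add, qf_smul, qf_rk]
      exact add_pos_of_pos_of_nonneg (ih.1.2 ξ h) (mul_nonneg (hw a) (sq_nonneg _))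
    · rw [det_rk ih.1, ← ih.1.qf_inv]
      exact le_mul_of_one_le_right ih.1.det_pos.le
        (le_add_of_nonneg_right (mul_nonneg (hw a) (ih.1.psd.2 _)))

theorem det_basis {ι : Type*} (σ : V → ι) (w : ι → ℝ) (hw : ∀ i, 0 < w i) (v : ι → V → ℝ)
    (h : (Matrix.of fun x => v (σ x)).det ≠ 0) :
    PD (∑ x, w (σ x) • rk (v (σ x))) ∧ (∑ x, w (σ x) • rk (v (σ x))).det =
      (Matrix.of fun x => v (σ x)).det ^ 2 * ∏ x, w (σ x) := by
  refine ⟨⟨symm_sum _ _ fun _ _ => (rk_symm _).smul _, fun ξ hξ => ?_⟩, ?_⟩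
  · rw [qf_sum]
    simp only [qf_smul, qf_rk]
    refine sum_pos' (fun x _ => mul_nonneg (hw _).le (sq_nonneg _)) ?_
    by_contra hcon
    refine h (exists_mulVec_eq_zero_iff.1 ⟨ξ, hξ, funext fun x => ?_⟩)
    by_contra hx
    exact hcon ⟨x, mem_univ x, mul_pos (hw _) (by
      have : v (σ x) ⬝ᵥ ξ ≠ 0 := hx
      positivity)⟩
  · have e : ∑ x, w (σ x) • rk (v (σ x)) = (Matrix.of fun x => v (σ x))ᵀ *
        (diagonal (fun x => w (σ x)) * Matrix.of fun x => v (σ x)) := by
      ext a b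
      simp only [Matrix.sum_apply, Matrix.smul_apply, rk, vecMulVec_apply, Matrix.mul_apply (M := _ᵀ),
        diagonal_mul, transpose_apply, of_apply, smul_eq_mul]
      exact sum_congr rfl fun _ _ => by ring
    rw [e, det_mul, det_mul, det_transpose, det_diagonal]
    ring

theorem layer {ι : Type*} (S : Finset ι) (J : ι → ℕ) (M : ℕ) (h : ∀ i ∈ S, J i ≤ M) :
    ∑ i ∈ S, J i = ∑ m ∈ range M, (S.filter fun i => m < J i).card := by
  simp only [card_filter]
  rw [sum_comm]
  refine sum_congr rfl fun i hi => ?_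
  rw [← card_filter]
  have : (range M).filter (fun m => m < J i) = range (J i) := by
    ext m; have := h i hi; simp; omega
  rw [this, card_range]

variable {E : Type*} [Fintype E] [DecidableEq E] (s t : E → V)

/-- incidence vector -/
def bv (e : E) : V → ℝ := Pi.single (s e) 1 - Pi.single (t e) 1

omit [Fintype E] [DecidableEq E] in
theorem bv_dot (e : E) (f : V → ℝ) : bv s t e ⬝ᵥ f = f (s e) - f (t e) := by
  simp [bv, sub_dotProduct]

theorem exists_basis [Nonempty V] {F : Finset E} {θ : ℝ} (hθ : 0 < θ) (hF : PC s t F univ θ)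
    (j : E → ℕ) : ∃ σ : V → Option E, Function.Injective σ ∧ (∀ x, σ x ∈ insertNone F) ∧
      (Matrix.of fun x => (σ x).elim 1 (bv s t)).det ≠ 0 ∧
      θ * ∑ x, ((σ x).elim 0 j : ℕ) ≤ ∑ e ∈ F, j e := by
  classical
  let v : Option E → V → ℝ := fun i => i.elim 1 (bv s t)
  let J : Option E → ℕ := fun i => i.elim 0 j
  let M := F.sup j
  obtain ⟨B, h1, h2, h3⟩ := greedy v (insertNone F) J (M + 1)
  have hcard : B.card ≤ Fintype.card V := by
    have := LinearIndependent.fintype_card_le_finrank h2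
    simpa using this
  have key : ∀ m ≤ M, ∃ k : ℕ, Fintype.card V + 1 ≤ (B.filter fun i => J i ≤ m).card + k ∧
      θ * (k - 1) ≤ (F.filter fun e => m < j e).card := by
    intro m hm
    obtain ⟨q, a1, a2⟩ := exists_label (span ℝ (v '' (B.filter fun i => J i ≤ m)))
      (h3 m (by omega) none (by simp) (Nat.zero_le _))
    refine ⟨_, a2.trans (Nat.add_le_add_right ?_ _), (hF q).trans ?_⟩
    · rw [← coe_image]
      exact (finrank_span_finset_le_card _).trans card_image_le
    · refine Nat.cast_le.2 (card_le_card fun e he => ?_)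
      rw [mem_cr] at he
      refine mem_filter.2 ⟨he.1, not_le.1 fun h => he.2.2.2 (a1 _ _ ?_)⟩
      exact h3 m (by omega) (some e) (by simpa using he.1) h
  have hB : B.card = Fintype.card V := by
    obtain ⟨k, a1, a2⟩ := key M le_rfl
    have e : F.filter (fun e => M < j e) = ∅ :=
      filter_eq_empty_iff.2 fun e he => not_lt.2 (le_sup he)
    rw [e, card_empty, Nat.cast_zero] at a2
    have : (k : ℝ) ≤ 1 := by
      by_contra h
      push_neg at h
      nlinarith
    have : k ≤ 1 := by exact_mod_cast this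
    have := card_filter_le B fun i => J i ≤ M
    omega
  let σ : V ≃ B := Fintype.equivOfCardEq (by simp [hB])
  refine ⟨fun x => σ x, Subtype.val_injective.comp σ.injective, fun x => (h1 _ (σ x).2).1, ?_, ?_⟩
  · have : LinearIndependent ℝ (Matrix.of fun x => v (σ x)).row := h2.comp σ σ.injective
    exact ((isUnit_iff_isUnit_det _).1 (linearIndependent_rows_iff_isUnit.1 this)).ne_zero
  · have e : ∑ x, J (σ x) = ∑ i ∈ B, J i := by
      rw [σ.sum_comp fun i : B => J i, sum_coe_sort B J]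
    change θ * ((∑ x, J (σ x) : ℕ) : ℝ) ≤ _
    rw [e, layer B J M fun i hi => Nat.lt_succ_iff.1 (h1 i hi).2,
      layer F j M fun e he => le_sup he]
    push_cast
    rw [mul_sum]
    refine sum_le_sum fun m hm => ?_
    obtain ⟨k, a1, a2⟩ := key m (mem_range.1 hm).le
    refine le_trans (mul_le_mul_of_nonneg_left ?_ hθ.le) a2
    have := card_filter_add_card_filter_not (s := B) fun i => J i ≤ m
    simp only [not_le] at this
    have : (B.filter fun i => m < J i).card + 1 ≤ k := by omega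
    exact le_sub_iff_add_le.2 (by exact_mod_cast this)

theorem exists_scale [Nonempty V] {F : Finset E} {θ ω : ℝ} (hθ : 0 < θ) (hF : PC s t F univ θ)
    (hω : 0 < ω) : ∃ lam : E → ℝ, (∀ e, 0 < lam e) ∧
      PD (rk 1 + ∑ e ∈ F, lam e • rk (bv s t e)) ∧ ∀ e ∈ F, ∀ f,
        lam e * (f (s e) - f (t e)) ^ 2 ≤
          (1 + ω) ^ 2 / θ * qf (rk 1 + ∑ e ∈ F, lam e • rk (bv s t e)) f := by
  classical
  let v : Option E → V → ℝ := fun i => i.elim 1 (bv s t)
  obtain ⟨σ0, hσ0⟩ := Finite.exists_min fun σ : V → Option E =>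
    if (Matrix.of fun x => v (σ x)).det = 0 then 1 else (Matrix.of fun x => v (σ x)).det ^ 2
  obtain ⟨c, hc⟩ : ∃ c, c = if (Matrix.of fun x => v (σ0 x)).det = 0 then 1
    else (Matrix.of fun x => v (σ0 x)).det ^ 2 := ⟨_, rfl⟩
  have hc0 : 0 < c := by
    rw [hc]; split_ifs with h
    · exact one_pos
    · positivity
  let N : (E → ℕ) → Matrix V V ℝ := fun j =>
    rk 1 + ∑ e ∈ F, Real.exp (-(ω * j e)) • rk (bv s t e)
  let G : (E → ℕ) → ℝ := fun j => (N j).det * Real.exp (ω / θ * ∑ e ∈ F, j e)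
  have key : ∀ j, PD (N j) ∧ c ≤ G j := by
    intro j
    obtain ⟨σ, h1, h2, h3, h4⟩ := exists_basis s t hθ hF j
    let w : Option E → ℝ := fun i => Real.exp (-(ω * (i.elim 0 j : ℕ)))
    obtain ⟨a1, a2⟩ := det_basis σ w (fun _ => Real.exp_pos _) v h3
    obtain ⟨a3, a4⟩ := det_add_le a1 (insertNone F \ univ.image σ) w
      (fun _ => (Real.exp_pos _).le) v
    have e : ∑ x, w (σ x) • rk (v (σ x)) + ∑ i ∈ insertNone F \ univ.image σ, w i • rk (v i) =
        N j := by
      rw [← sum_image (f := fun i => w i • rk (v i)) fun x _ y _ h => h1 h, add_comm,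
        sum_sdiff (image_subset_iff.2 fun x _ => h2 x), sum_insertNone]
      simp [w, v, N]
    rw [e] at a3 a4
    refine ⟨a3, ?_⟩
    have a5 := hσ0 σ
    rw [← hc, if_neg h3] at a5
    have a6 : 1 ≤ (∏ x, w (σ x)) * Real.exp (ω / θ * ∑ e ∈ F, j e) := by
      rw [← Real.exp_sum, ← Real.exp_add]
      refine Real.one_le_exp ?_
      rw [sum_neg_distrib, ← mul_sum, ← Nat.cast_sum, neg_add_eq_sub, sub_nonneg, div_mul_eq_mul_div,
        le_div_iff₀ hθ]
      nlinarith
    rw [a2] at a4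
    calc c ≤ (Matrix.of fun x => v (σ x)).det ^ 2 * 1 := by rw [mul_one]; exact a5
      _ ≤ _ := mul_le_mul_of_nonneg_left a6 (sq_nonneg _)
      _ ≤ _ := by rw [← mul_assoc]; exact mul_le_mul_of_nonneg_right a4 (Real.exp_pos _).le
  have hb : BddBelow (Set.range G) := ⟨c, by rintro _ ⟨j, rfl⟩; exact (key j).2⟩
  have h0 : 0 < ⨅ j, G j := hc0.trans_le (le_ciInf fun j => (key j).2)
  obtain ⟨j, hj⟩ := exists_lt_of_ciInf_lt (f := G) (a := (⨅ j, G j) * Real.exp (ω ^ 2 / θ))
    (lt_mul_of_one_lt_right h0 (Real.one_lt_exp_iff.2 (by positivity)))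
  refine ⟨fun e => Real.exp (-(ω * j e)), fun _ => Real.exp_pos _, (key j).1, fun e he f => ?_⟩
  change Real.exp (-(ω * j e)) * _ ≤ _ * qf (N j) f
  have a1 := ciInf_le hb (j + Pi.single e 1)
  have e1 : N (j + Pi.single e 1) =
      N j + (-((1 - Real.exp (-ω)) * Real.exp (-(ω * j e)))) • rk (bv s t e) := by
    simp only [N]
    rw [← add_sum_erase _ _ he, ← add_sum_erase _ _ he, sum_congr rfl (g := fun a =>
      Real.exp (-(ω * j a)) • rk (bv s t a)) fun a ha => by simp [(mem_erase.1 ha).1]]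
    have : Real.exp (-(ω * ((j + Pi.single e 1 : E → ℕ) e : ℕ))) =
        Real.exp (-(ω * j e)) + -((1 - Real.exp (-ω)) * Real.exp (-(ω * j e))) := by
      simp only [Pi.add_apply, Pi.single_eq_same, Nat.cast_add, Nat.cast_one, mul_add, neg_add,
        Real.exp_add, mul_one]
      ring
    rw [this, add_smul]
    abel
  have e2 : ∑ a ∈ F, (j + Pi.single e 1 : E → ℕ) a = ∑ a ∈ F, j a + 1 := by
    simp [sum_add_distrib, Pi.single_apply, he]
  have hN := (key j).1
  have cs := hN.cs_inv (bv s t e) f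
  rw [bv_dot] at cs
  simp only [G] at a1 hj
  rw [e1, det_rk hN, e2, Nat.cast_add, mul_add (ω / θ), Real.exp_add] at a1
  generalize bv s t e ⬝ᵥ (N j)⁻¹ *ᵥ bv s t e = R at a1 cs
  have hl := Real.exp_pos (-(ω * j e))
  generalize Real.exp (-(ω * j e)) = l at a1 hl ⊢
  have a2 := hj.trans_le (mul_le_mul_of_nonneg_right a1 (Real.exp_pos _).le)
  have hp : 0 < (N j).det * Real.exp (ω / θ * ∑ e ∈ F, j e) :=
    mul_pos hN.det_pos (Real.exp_pos _)
  have a3 : 1 < (1 - (1 - Real.exp (-ω)) * (l * R)) * Real.exp (ω / θ + ω ^ 2 / θ) := by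
    refine lt_of_mul_lt_mul_left ?_ hp.le
    rw [Real.exp_add]
    simp only [Nat.cast_one, mul_one] at a2
    linarith
  have a4 : (1 - Real.exp (-ω)) * (l * R) ≤ ω / θ + ω ^ 2 / θ := by
    have b1 := Real.add_one_le_exp (-(ω / θ + ω ^ 2 / θ))
    rw [Real.exp_neg] at b1
    have b2 := (inv_lt_iff_one_lt_mul₀ (Real.exp_pos _)).2 a3
    linarith
  have a5 : ω ≤ (1 + ω) * (1 - Real.exp (-ω)) := by
    have b1 := Real.add_one_le_exp ω
    have b2 : Real.exp (-ω) * Real.exp ω = 1 := by rw [← Real.exp_add]; simp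
    nlinarith [Real.exp_pos (-ω)]
  have a6 : l * R ≤ (1 + ω) ^ 2 / θ := by
    by_contra h
    push_neg at h
    have b0 : 0 < l * R := lt_trans (by positivity) h
    have b1 := mul_le_mul_of_nonneg_right a5 b0.le
    have b2 := mul_le_mul_of_nonneg_left a4 (by positivity : 0 ≤ 1 + ω)
    have b3 := mul_lt_mul_of_pos_left h hω
    have e : (1 + ω) * (ω / θ + ω ^ 2 / θ) = ω * ((1 + ω) ^ 2 / θ) := by ring
    linarith
  have a7 := mul_le_mul_of_nonneg_right a6 (hN.psd.2 f)
  exact (mul_le_mul_of_nonneg_left cs hl.le).trans ((mul_assoc _ _ _).symm.trans_le a7)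

end Vale.Agent.P061
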