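import Mathlib

/-! Multi-affine stable functions and the barrier argument. -/

namespace Vale.Agent.P061

open Finset

variable {ι : Type*} [DecidableEq ι]

/-- multi-affine functions over a commutative ring -/
def MA {R : Type*} [CommRing R] (f : (ι → R) → R) : Prop :=
  ∀ a z (t : R), f (z + Pi.single a t) = f z + t * (f (z + Pi.single a 1) - f z)

/-- no zero on the product of upper half planes -/
def Stab (f : (ι → ℂ) → ℂ) : Prop := ∀ z, (∀ a, 0 < (z a).im) → f z ≠ 0

/-- real functions with a multi-affine stable continuous complex extension -/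
def Good (g : (ι → ℝ) → ℝ) : Prop :=
  ∃ f : (ι → ℂ) → ℂ, Continuous f ∧ MA f ∧ Stab f ∧ ∀ y : ι → ℝ, f (fun a => (y a : ℂ)) = g y

/-- average of two unit shifts -/
noncomputable def Tav {R : Type*} [Field R] (p q : ι) (f : (ι → R) → R) : (ι → R) → R :=
  fun z => (f (z + Pi.single p (-1)) + f (z + Pi.single q (-1))) / 2

theorem coe_add_single (y : ι → ℝ) (a : ι) (t : ℝ) :
    (fun b => ((y + (Pi.single a t : ι → ℝ)) b : ℂ)) =
      (fun b => (y b : ℂ)) + Pi.single a (t : ℂ) := by
  ext b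
  by_cases h : b = a
  · subst h; simp
  · simp [h]

theorem Good.ma {g : (ι → ℝ) → ℝ} (hg : Good g) : MA g := by
  obtain ⟨f, -, hma, -, he⟩ := hg
  intro a y t
  have h1 := he (y + Pi.single a t)
  have h2 := he (y + Pi.single a 1)
  rw [coe_add_single] at h1 h2
  have := hma a (fun b => (y b : ℂ)) t
  rw [h1, he] at this
  rw [Complex.ofReal_one] at h2
  rw [h2] at this
  exact_mod_cast this

theorem MA.two {R : Type*} [CommRing R] {f : (ι → R) → R} (hf : MA f) (a b : ι) (z : ι → R)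
    (α β : R) : f (z + Pi.single a α + Pi.single b β) =
      f z + α * (f (z + Pi.single a 1) - f z) + β * (f (z + Pi.single b 1) - f z) +
        α * β * (f (z + Pi.single a 1 + Pi.single b 1) - f (z + Pi.single a 1) -
          f (z + Pi.single b 1) + f z) := by
  rw [hf b, hf a z α, add_right_comm z, hf a (z + Pi.single b 1) α, add_right_comm z]
  ring

theorem MA.tav {R : Type*} [Field R] {f : (ι → R) → R} (hf : MA f) (p q : ι) :
    MA (Tav p q f) := by
  intro a z t
  simp only [Tav]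
  rw [add_right_comm z _ (Pi.single p _), add_right_comm z _ (Pi.single q _),
    add_right_comm z _ (Pi.single p _), add_right_comm z _ (Pi.single q _), hf a _ t,
    hf a (z + Pi.single q (-1)) t]
  ring

theorem Stab.ratio {f : (ι → ℂ) → ℂ} (hf : MA f) (hs : Stab f) {z : ι → ℂ}
    (hz : ∀ a, 0 < (z a).im) (a : ι) :
    (f (z + Pi.single a 1) - f z) / f z = 0 ∨ ((f (z + Pi.single a 1) - f z) / f z).im < 0 := by
  obtain ⟨d, hd⟩ : ∃ d, d = f (z + Pi.single a 1) - f z := ⟨_, rfl⟩
  rw [← hd]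
  by_cases h0 : d = 0
  · left; simp [h0]
  right
  have hf0 := hs z hz
  by_contra hcon
  push_neg at hcon
  have him : 0 ≤ (-(f z) / d).im := by
    have e : -(f z) / d = -(d / f z)⁻¹ := by rw [inv_div, neg_div]
    rw [e, Complex.neg_im, Complex.inv_im, neg_div, neg_neg]
    exact div_nonneg hcon (Complex.normSq_nonneg _)
  refine hs (z + Pi.single a (-(f z) / d)) (fun b => ?_) ?_
  · by_cases h : b = a
    · subst h; simp only [Pi.add_apply, Pi.single_eq_same, Complex.add_im]; linarith [hz b]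
    · simp [h, hz b]
  · rw [hf a, ← hd]; field_simp; ring

theorem Good.tav {g : (ι → ℝ) → ℝ} (hg : Good g) (p q : ι) : Good (Tav p q g) := by
  obtain ⟨f, hc, hma, hs, he⟩ := hg
  refine ⟨Tav p q f, ?_, hma.tav p q, ?_, ?_⟩
  · unfold Tav; fun_prop
  · intro z hz h0
    have hf0 := hs z hz
    have r1 := hs.ratio hma hz p
    have r2 := hs.ratio hma hz q
    have e : (f (z + Pi.single p 1) - f z) / f z + (f (z + Pi.single q 1) - f z) / f z = 2 := by
      simp only [Tav] at h0
      rw [hma p, hma q] at h0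
      field_simp
      linear_combination (-2) * h0
    have e2 := congrArg Complex.im e
    rw [Complex.add_im] at e2
    have e3 : (2 : ℂ).im = 0 := by simp
    rcases r1 with r1 | r1 <;> rcases r2 with r2 | r2
    · rw [r1, r2] at e; simp at e
    · rw [r1] at e2; simp only [Complex.zero_im] at e2; linarith
    · rw [r2] at e2; simp only [Complex.zero_im] at e2; linarith
    · linarith
  · intro y
    have h1 := he (y + Pi.single p (-1))
    have h2 := he (y + Pi.single q (-1))
    rw [coe_add_single] at h1 h2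
    simp only [Tav]
    push_cast at h1 h2 ⊢
    rw [h1, h2]

/-- discrete derivative -/
def dd (g : (ι → ℝ) → ℝ) (a : ι) (y : ι → ℝ) : ℝ := g (y + Pi.single a 1) - g y

theorem Good.rayleigh {g : (ι → ℝ) → ℝ} (hg : Good g) {a b : ι} (hab : a ≠ b) (y : ι → ℝ) :
    g y * (dd g a (y + Pi.single b 1) - dd g a y) ≤ dd g a y * dd g b y := by
  obtain ⟨f, hc, hma, hs, he⟩ := hg
  by_contra hcon
  push_neg at hcon
  let z : ℝ → ι → ℂ := fun ε c => (y c : ℂ) + ε * Complex.I
  have hzc : Continuous z := by fun_prop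
  let A : ℝ → ℂ := fun ε => f (z ε)
  let B : ℝ → ℂ := fun ε => f (z ε + Pi.single a 1) - f (z ε)
  let C : ℝ → ℂ := fun ε => f (z ε + Pi.single b 1) - f (z ε)
  let D : ℝ → ℂ := fun ε => f (z ε + Pi.single a 1 + Pi.single b 1) - f (z ε + Pi.single a 1) -
    f (z ε + Pi.single b 1) + f (z ε)
  let ψ : ℝ → ℝ := fun ε =>
    (-(A ε + C ε * Complex.I) * (starRingEnd ℂ) (B ε + D ε * Complex.I)).im
  have hψ : Continuous ψ := by
    have : Continuous (starRingEnd ℂ) := Complex.continuous_conj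
    fun_prop
  have hz0 : z 0 = fun c => (y c : ℂ) := by ext c; simp [z]
  have h0 : 0 < ψ 0 := by
    have h1 := he (y + Pi.single a 1)
    have h2 := he (y + Pi.single b 1)
    have h3 := he (y + Pi.single a 1 + Pi.single b 1)
    rw [coe_add_single] at h1 h2
    rw [coe_add_single, coe_add_single] at h3
    rw [Complex.ofReal_one] at h1 h2 h3
    simp only [ψ, A, B, C, D, hz0, h1, h2, h3, he]
    simp only [dd, add_right_comm y (Pi.single b 1)] at hcon
    simp
    nlinarith
  obtain ⟨ε, hε, hε0⟩ : ∃ ε : ℝ, 0 < ψ ε ∧ 0 < ε := by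
    have h1 : ∀ᶠ ε in nhdsWithin (0 : ℝ) (Set.Ioi 0), 0 < ψ ε :=
      nhdsWithin_le_nhds (hψ.continuousAt.eventually (lt_mem_nhds h0))
    exact (h1.and self_mem_nhdsWithin).exists
  have hne : B ε + D ε * Complex.I ≠ 0 := by
    intro h; simp only [ψ, h] at hε; simp at hε
  obtain ⟨α, hα⟩ : ∃ α, α = -(A ε + C ε * Complex.I) / (B ε + D ε * Complex.I) := ⟨_, rfl⟩
  have hαim : 0 < α.im := by
    rw [hα, div_eq_mul_inv, Complex.inv_def, ← mul_assoc, Complex.mul_im, Complex.ofReal_re,
      Complex.ofReal_im, mul_zero, zero_add]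
    exact mul_pos hε (inv_pos.2 (Complex.normSq_pos.2 hne))
  refine hs (z ε + Pi.single a α + Pi.single b Complex.I) (fun c => ?_) ?_
  · by_cases h1 : c = a
    · subst h1; simp [z, hab]; linarith
    · by_cases h2 : c = b
      · subst h2; simp [z, h1]; linarith
      · simp [z, h1, h2, hε0]
  · rw [hma.two]
    have : α * (B ε + D ε * Complex.I) = -(A ε + C ε * Complex.I) := by
      rw [hα, div_mul_cancel₀ _ hne]
    simp only [A, B, C, D] at this
    linear_combination this

/-- above the roots -/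
def Ab (g : (ι → ℝ) → ℝ) (y : ι → ℝ) : Prop := ∀ y', y ≤ y' → 0 < g y'

theorem Ab.mono {g : (ι → ℝ) → ℝ} {y y' : ι → ℝ} (h : Ab g y) (hy : y ≤ y') : Ab g y' :=
  fun _ h' => h _ (hy.trans h')

theorem le_add_single (y : ι → ℝ) (a : ι) {t : ℝ} (ht : 0 ≤ t) :
    y ≤ y + (Pi.single a t : ι → ℝ) := by
  intro b
  by_cases h : b = a
  · subst h; simp [ht]
  · simp [h]

theorem MA.dd {g : (ι → ℝ) → ℝ} (hg : MA g) (a : ι) : MA (dd g a) := by
  intro b z t
  simp only [Vale.Agent.P061.dd]
  rw [add_right_comm z _ (Pi.single a _), add_right_comm z _ (Pi.single a _), hg b _ t, hg b z t]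
  ring

theorem MA.dd_self {g : (ι → ℝ) → ℝ} (hg : MA g) (a : ι) (y : ι → ℝ) (t : ℝ) :
    Vale.Agent.P061.dd g a (y + Pi.single a t) = Vale.Agent.P061.dd g a y := by
  simp only [Vale.Agent.P061.dd]
  rw [add_assoc, ← Pi.single_add, hg a y (t + 1), hg a y t]
  ring

theorem Good.mono_one {g : (ι → ℝ) → ℝ} (hg : Good g) (a b : ι) (y : ι → ℝ) {t : ℝ}
    (ht : 0 ≤ t) : dd g a (y + Pi.single b t) * g y ≤ dd g a y * g (y + Pi.single b t) := by
  by_cases hab : a = b
  · subst hab
    rw [hg.ma.dd_self, hg.ma a y t]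
    have : 0 ≤ t * (dd g a y * dd g a y) := mul_nonneg ht (mul_self_nonneg _)
    simp only [dd] at this ⊢
    nlinarith
  · have h := hg.rayleigh hab y
    rw [hg.ma.dd a b y t, hg.ma b y t]
    have := mul_le_mul_of_nonneg_left h ht
    simp only [dd] at this ⊢
    nlinarith

theorem Good.mono [Fintype ι] {g : (ι → ℝ) → ℝ} (hg : Good g) (a : ι) {y y' : ι → ℝ}
    (hy : Ab g y) (h : y ≤ y') : dd g a y' / g y' ≤ dd g a y / g y := by
  have key : ∀ s : Finset ι, ∀ y' : ι → ℝ, y ≤ y' → (∀ b, b ∉ s → y' b = y b) →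
      dd g a y' / g y' ≤ dd g a y / g y := by
    intro s
    induction s using Finset.induction_on with
    | empty =>
      intro y' _ h2
      have : y' = y := funext fun b => h2 b (by simp)
      rw [this]
    | insert b s hb ih =>
      intro y' h1 h2
      let y1 : ι → ℝ := Function.update y' b (y b)
      have e : y' = y1 + Pi.single b (y' b - y b) := by
        ext c
        by_cases hc : c = b
        · subst hc; simp [y1]
        · simp [y1, hc]
      have hy1 : y ≤ y1 := by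
        intro c
        by_cases hc : c = b
        · subst hc; simp [y1]
        · simp only [y1, Function.update_of_ne hc]; exact h1 c
      refine le_trans ?_ (ih y1 hy1 fun c hc => ?_)
      · rw [div_le_div_iff₀ (hy _ h1) (hy _ hy1)]
        have := hg.mono_one a b y1 (sub_nonneg.2 (h1 b))
        rw [← e] at this
        exact this
      · by_cases hcb : c = b
        · subst hcb; simp [y1]
        · simp only [y1, Function.update_of_ne hcb]
          exact h2 c (by simp [hcb, hc])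
  exact key univ y' h (by simp)

theorem nonneg_of_affine {A B : ℝ} (h : ∀ t, 0 ≤ t → 0 ≤ A + t * B) : 0 ≤ B := by
  by_contra hB
  push_neg at hB
  have := h ((|A| + 1) / -B) (div_nonneg (by positivity) (by linarith))
  have e : (|A| + 1) / -B * B = -(|A| + 1) := by
    have : B ≠ 0 := hB.ne
    field_simp
  linarith [le_abs_self A]

theorem conv_alg {A0 A1 A2 B0 B1 B2 δ : ℝ} (h0 : 0 < A0) (h1 : 0 ≤ A1) (h2 : 0 ≤ A2) (hδ : 0 ≤ δ)
    (hW : ∀ t, (A0 + A1 * t + A2 * t ^ 2) * (B1 + 2 * B2 * t) ≤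
      (B0 + B1 * t + B2 * t ^ 2) * (A1 + 2 * A2 * t)) :
    δ * A0 * ((B0 + B1 * δ + B2 * δ ^ 2) * (A1 + 2 * A2 * δ) -
      (A0 + A1 * δ + A2 * δ ^ 2) * (B1 + 2 * B2 * δ)) ≤
      (B0 * (A0 + A1 * δ + A2 * δ ^ 2) - A0 * (B0 + B1 * δ + B2 * δ ^ 2)) *
        (A0 + A1 * δ + A2 * δ ^ 2) := by
  obtain ⟨w0, hw0⟩ : ∃ w, w = B0 * A1 - A0 * B1 := ⟨_, rfl⟩
  obtain ⟨w1, hw1⟩ : ∃ w, w = B0 * A2 - A0 * B2 := ⟨_, rfl⟩
  obtain ⟨w2, hw2⟩ : ∃ w, w = B1 * A2 - A1 * B2 := ⟨_, rfl⟩
  have hq : ∀ t, 0 ≤ w2 * (t * t) + (2 * w1) * t + w0 := fun t => by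
    rw [hw0, hw1, hw2]; linarith [hW t]
  have hd := discrim_le_zero hq
  rw [discrim] at hd
  have hw00 : 0 ≤ w0 := by simpa using hq 0
  have hpl : A2 * w0 - A1 * w1 + A0 * w2 = 0 := by rw [hw0, hw1, hw2]; ring
  have hk : A0 * w1 ^ 2 + A2 * w0 ^ 2 ≤ A1 * w0 * w1 := by
    have : A0 * w1 ^ 2 ≤ A0 * (w0 * w2) := mul_le_mul_of_nonneg_left (by linarith) h0.le
    have e : A0 * (w0 * w2) = w0 * (A1 * w1 - A2 * w0) := by linear_combination w0 * hpl
    nlinarith
  have hw10 : 0 ≤ w1 := by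
    by_contra hn
    push_neg at hn
    have : 0 < A0 * w1 ^ 2 := mul_pos h0 (by have := hn.ne; positivity)
    have : 0 ≤ A1 * w0 * (-w1) := mul_nonneg (mul_nonneg h1 hw00) (by linarith)
    nlinarith [mul_nonneg h2 (sq_nonneg w0)]
  have hw11 : A0 * w1 ≤ A1 * w0 := by
    rcases hw10.eq_or_lt with h | h
    · rw [← h]; simpa using mul_nonneg h1 hw00
    · by_contra hn
      push_neg at hn
      nlinarith [mul_nonneg h2 (sq_nonneg w0), mul_pos h (sub_pos.2 hn)]
  have : 0 ≤ δ * (δ * (A1 * w0 - A0 * w1) + 2 * δ ^ 2 * (A2 * w0) + δ ^ 3 * (w1 * A2)) := by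
    have : 0 ≤ A1 * w0 - A0 * w1 := by linarith
    positivity
  rw [hw0, hw1] at this
  linarith

end Vale.Agent.P061
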