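import Vale.Agent.P061.Ball

/-! One level of the top-down ball packing. -/

namespace Vale.Agent.P061

open Finset

variable {V α : Type*} [Fintype V] [DecidableEq V] [DecidableEq α] {d : V → V → ℕ}

theorem exists_asg (hd : IsPM d) (U : Finset V) (q : V → α) {T : Finset (Item V)} {ρ : ℕ}
    (h : Inv d T ρ) (hsp : ∀ i ∈ T, ∃ u, Splits d i (U.filter fun y => q y = u)) (w : ℕ) :
    ∃ (asg : Item V → V) (T2 : Finset (Item V)), T2 ⊆ T ∧
      (∀ i ∈ T2, asg i ∈ U ∧ Splits d i (U.filter fun y => q y = q (asg i))) ∧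
      T.card ≤ T2.card + 2 * w * (U.image q).card ∧
      ∀ i ∈ T2, ∀ j ∈ T2, i.1 = j.1 → i.2 ≤ j.2 → j.2 ≤ i.2 + w → asg i = asg j := by
  classical
  let key : V → V → ℕ := fun c x => d c x * Fintype.card V + (Fintype.equivFin V x : ℕ)
  have hk1 : ∀ c x y, key c x ≤ key c y → d c x ≤ d c y := fun c x y hxy => by
    by_contra hn
    push_neg at hn
    have h1 := (Fintype.equivFin V y).2
    have h2 : (d c y + 1) * Fintype.card V ≤ d c x * Fintype.card V := Nat.mul_le_mul_right _ hn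
    simp only [key] at hxy
    nlinarith
  have hk2 : ∀ c x y, key c x = key c y → x = y := fun c x y hxy => by
    have h1 : d c x = d c y := le_antisymm (hk1 c x y hxy.le) (hk1 c y x hxy.ge)
    simp only [key, h1] at hxy
    exact (Fintype.equivFin V).injective (Fin.ext (by omega))
  have hex : ∀ i : Item V, ∃ x : V, i ∈ T → (x ∈ U ∧ ∃ y ∈ U, q y = q x ∧ i.2 < d i.1.1 y) ∧
      ∀ z ∈ U, (∃ y ∈ U, q y = q z ∧ i.2 < d i.1.1 y) → key i.1.1 x ≤ key i.1.1 z := by
    intro i
    by_cases hi : i ∈ T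
    · obtain ⟨u, -, y, hy, hy'⟩ := hsp i hi
      obtain ⟨x, hx, hm⟩ := exists_min_image
        (U.filter fun z => ∃ y ∈ U, q y = q z ∧ i.2 < d i.1.1 y) (key i.1.1)
        ⟨y, mem_filter.2 ⟨(mem_filter.1 hy).1, y, (mem_filter.1 hy).1, rfl, not_le.1 hy'⟩⟩
      exact ⟨x, fun _ => ⟨mem_filter.1 hx, fun z hz hz' => hm z (mem_filter.2 ⟨hz, hz'⟩)⟩⟩
    · exact ⟨i.1.1, fun h => absurd h hi⟩
  choose asg hasg using hex
  have hs : ∀ i ∈ T, Splits d i (U.filter fun y => q y = q (asg i)) := by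
    intro i hi
    obtain ⟨⟨h1, y, hy, h2, h3⟩, h4⟩ := hasg i hi
    obtain ⟨u, ⟨x', hx', hx''⟩, y', hy', hy''⟩ := hsp i hi
    rw [mem_filter] at hx' hy'
    have := hk1 _ _ _ (h4 x' hx'.1 ⟨y', hy'.1, hy'.2.trans hx'.2.symm, not_le.1 hy''⟩)
    exact ⟨⟨asg i, by simp [h1], this.trans hx''⟩, y, by simp [hy, h2], not_le.2 h3⟩
  let Del : α → Finset (Item V) := fun u => T.filter fun i =>
    Splits d i (U.filter fun y => q y = u) ∧
      ∀ y ∈ U.filter fun y => q y = u, d i.1.1 y ≤ i.2 + w ∧ d i.1.1 y < i.1.2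
  have hDel : ∀ u, (Del u).card ≤ 2 * w := by
    intro u
    refine card_items (fun i hi j hj => ?_) fun j hj => ⟨j.2 + 1 - w, fun i hi hij => ?_⟩
    · rw [mem_filter] at hi hj
      exact h.uniq' hd hi.1 hj.1 hi.2.1 hj.2.1 (fun y hy => (hi.2.2 y hy).2)
        (fun y hy => (hj.2.2 y hy).2)
    · rw [mem_filter] at hi hj
      obtain ⟨-, y, hy, hy'⟩ := hi.2.1
      obtain ⟨-, z, hz, hz'⟩ := hj.2.1
      have a := (hj.2.2 y hy).1
      have b := (hi.2.2 z hz).1
      simp only [Ins] at hy' hz'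
      rw [hij] at hy' b
      omega
  refine ⟨asg, T \ (U.image q).biUnion Del, sdiff_subset, fun i hi =>
    ⟨(hasg i (mem_sdiff.1 hi).1).1.1, hs i (mem_sdiff.1 hi).1⟩, ?_, ?_⟩
  · refine card_le_card_sdiff_add_card.trans (Nat.add_le_add_left ?_ _)
    refine card_biUnion_le.trans ((sum_le_card_nsmul _ _ _ fun u _ => hDel u).trans ?_)
    rw [smul_eq_mul, mul_comm]
  · intro i hi j hj hij h1 h2
    rw [mem_sdiff] at hi hj
    obtain ⟨⟨a1, a2⟩, a3⟩ := hasg i hi.1
    obtain ⟨⟨b1, y, hy, b2, b2'⟩, b3⟩ := hasg j hj.1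
    by_cases hc : ∃ y ∈ U, q y = q (asg i) ∧ j.2 < d j.1.1 y
    · have c1 := b3 _ a1 hc
      have c2 := a3 _ b1 ⟨y, hy, b2, by rw [hij]; omega⟩
      rw [hij] at c2
      exact hk2 _ _ _ (le_antisymm c2 c1)
    · push_neg at hc
      refine absurd (mem_biUnion.2 ⟨q (asg i), mem_image_of_mem q a1,
        mem_filter.2 ⟨hi.1, hs i hi.1, fun z hz => ?_⟩⟩) hi.2
      rw [mem_filter] at hz
      have := hc z hz.1 hz.2
      have := (h.rad j hj.1).1
      rw [hij]; omega

theorem exists_fam (hd : IsPM d) (U : Finset V) (q : V → α) {T : Finset (Item V)} {ρ r : ℕ}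
    (h : Inv d T ρ) (hr : 3 * r ≤ ρ) (hr0 : 0 < r) (asg : Item V → V)
    (ha : ∀ i ∈ T, asg i ∈ U ∧ Splits d i (U.filter fun y => q y = q (asg i)))
    {C : Finset V} (hCU : C ⊆ U) (hC : ∀ x ∈ C, ∀ y ∈ C, x ≠ y → 4 * r ≤ d x y)
    (hf : ∀ c ∈ C, ∀ i ∈ T, q (asg i) = q c → ¬Near d i c (2 * r)) :
    ∃ T' : α → Finset (Item V),
      (∀ u, Inv d (T' u) r ∧ ∀ i ∈ T' u, Splits d i (U.filter fun y => q y = u)) ∧
      T.card + r * C.card ≤ ∑ u ∈ U.image q, (T' u).card + r * (U.image q).card := by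
  classical
  let C' : α → Finset V := fun u => C.filter fun c => q c = u ∧ ∃ c' ∈ C, q c' = u ∧ c' ≠ c
  refine ⟨fun u => T.filter (fun i => q (asg i) = u) ∪ (C' u ×ˢ {r}) ×ˢ range r,
    fun u => ⟨?_, fun i hi => ?_⟩, ?_⟩
  · refine (h.subset (filter_subset _ _)).add hd hr
      (fun x hx y hy => hC x (mem_filter.1 hx).1 y (mem_filter.1 hy).1) fun c hc i hi => ?_
    rw [mem_filter] at hc hi
    exact hf c hc.1 i hi.1 (hi.2.trans hc.2.1.symm)
  · rcases mem_union.1 hi with hi | hi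
    · rw [mem_filter] at hi
      exact hi.2 ▸ (ha i hi.1).2
    · simp only [mem_product, mem_singleton, mem_range, C', mem_filter] at hi
      obtain ⟨⟨⟨a, b, c', c1, c2, c3⟩, -⟩, e⟩ := hi
      refine ⟨⟨_, mem_filter.2 ⟨hCU a, b⟩, by simp [Ins, hd.refl]⟩,
        c', mem_filter.2 ⟨hCU c1, c2⟩, ?_⟩
      have := hC _ a _ c1 c3.symm
      simp only [Ins]; omega
  · have h1 : T.card = ∑ u ∈ U.image q, (T.filter fun i => q (asg i) = u).card :=
      card_eq_sum_card_fiberwise fun i hi => mem_image_of_mem q (ha i hi).1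
    have h2 : C.card = ∑ u ∈ U.image q, (C.filter fun c => q c = u).card :=
      card_eq_sum_card_fiberwise fun c hc => mem_image_of_mem q (hCU hc)
    rw [h1, h2, mul_sum, ← sum_add_distrib, card_eq_sum_ones (U.image q), mul_sum,
      ← sum_add_distrib]
    refine sum_le_sum fun u _ => ?_
    rw [card_union_of_disjoint]
    · have h3 : (C.filter fun c => q c = u).card ≤ (C' u).card + 1 := by
        by_cases h4 : (C.filter fun c => q c = u).card ≤ 1
        · omega
        · refine le_trans (card_le_card fun c hc => ?_) (Nat.le_succ _)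
          obtain ⟨c', hc', hne⟩ := exists_mem_ne (not_le.1 h4) c
          rw [mem_filter] at hc hc'
          exact mem_filter.2 ⟨hc.1, hc.2, c', hc'.1, hc'.2, hne⟩
      simp only [card_product, card_singleton, card_range]
      nlinarith
    · refine disjoint_left.2 fun i h1 h2 => ?_
      have := (h.rad i (mem_filter.1 h1).1).2
      simp only [mem_product, mem_singleton] at h2
      omega

variable {E : Type*} {s t : E → V}

theorem step_comb (hd : IsPM d) (U : Finset V) (q : V → α) {T : Finset (Item V)} {ρ r L : ℕ}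
    (h : Inv d T ρ) (hsp : ∀ i ∈ T, ∃ u, Splits d i (U.filter fun y => q y = u))
    (hr0 : 0 < r) (hρ : 2 * ((L + 6) * r) ≤ ρ) (B : Finset E)
    (hB : ∀ e ∈ B, s e ∈ U ∧ t e ∈ U ∧ q (s e) ≠ q (t e) ∧ d (s e) (t e) ≤ L * r) :
    ∃ (T' : α → Finset (Item V)) (Z : Finset V),
      (∀ u, Inv d (T' u) r ∧ ∀ i ∈ T' u, Splits d i (U.filter fun y => q y = u)) ∧
      (∀ e ∈ B, (∃ z ∈ Z, d (s e) z < 4 * r) ∧ ∃ z ∈ Z, d (t e) z < 4 * r) ∧
      (2 * L + 14) * T.card + r * Z.card ≤ (2 * L + 14) * ∑ u ∈ U.image q, (T' u).card +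
        (2 * L + 14) ^ 2 * r * (U.image q).card := by
  classical
  obtain ⟨asg, T2, hT2, ha, hc, hsame⟩ := exists_asg hd U q h hsp ((L + 4) * r)
  have h2 := h.subset hT2
  have hr : 3 * r ≤ ρ := by nlinarith
  let Fr : V → Prop := fun x => ∀ i ∈ T2, q (asg i) = q x → ¬Near d i x (2 * r)
  have hfree : ∀ e ∈ B, Fr (s e) ∨ Fr (t e) := by
    intro e he
    by_contra hcon
    simp only [Fr, not_or, not_forall, not_not] at hcon
    obtain ⟨⟨i, hi, i1, i2⟩, j, hj, j1, j2⟩ := hcon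
    obtain ⟨-, -, b1, b2⟩ := hB e he
    have t1 := hd.tri j.1.1 (s e) (t e)
    have t2 := hd.tri j.1.1 (t e) (s e)
    have t3 := hd.symm (s e) (t e)
    have hij : i.1 = j.1 := h2.uniq hd (w := (L + 2) * r) (x := s e) (by nlinarith) hi hj
      (by simp only [Near] at i2 ⊢; rw [add_mul]; omega)
      (by simp only [Near] at j2 ⊢; rw [add_mul]; omega)
    simp only [Near] at i2 j2
    rw [hij] at i2
    rcases le_total i.2 j.2 with hle | hle
    · have := hsame i hi j hj hij hle (by rw [add_mul]; omega)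
      exact b1 (i1.symm.trans (this ▸ j1))
    · have := hsame j hj i hi hij.symm hle (by rw [add_mul]; omega)
      exact b1 (i1.symm.trans (this ▸ j1))
  let En : Finset V := U.filter fun x => ∃ e ∈ B, x = s e ∨ x = t e
  obtain ⟨Z, hZ, hZs, hZc⟩ := exists_net hd En (r := 4 * r) (by omega)
  obtain ⟨Y, hY, hYs, hYc⟩ := exists_net hd (En.filter Fr) (r := 4 * r) (by omega)
  have hEs : ∀ e ∈ B, s e ∈ En := fun e he => mem_filter.2 ⟨(hB e he).1, e, he, Or.inl rfl⟩
  have hEt : ∀ e ∈ B, t e ∈ En := fun e he => mem_filter.2 ⟨(hB e he).2.1, e, he, Or.inr rfl⟩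
  have hcov : ∀ e ∈ B, (∃ z ∈ Z, d (s e) z < 4 * r) ∧ ∃ z ∈ Z, d (t e) z < 4 * r :=
    fun e he => ⟨hZc _ (hEs e he), hZc _ (hEt e he)⟩
  by_cases hcase : Z.card ≤ (2 * L + 14) * Y.card
  · obtain ⟨T', h3, h4⟩ := exists_fam hd U q h2 hr hr0 asg ha
      (hY.trans ((filter_subset _ _).trans (filter_subset _ _))) hYs
      fun c hc => (mem_filter.1 (hY hc)).2
    refine ⟨T', Z, h3, hcov, ?_⟩
    have a1 := Nat.mul_le_mul_left (2 * L + 14) h4
    have a2 := Nat.mul_le_mul_left (2 * L + 14) hc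
    have a3 := Nat.mul_le_mul_left r hcase
    have a4 := Nat.zero_le (r * (U.image q).card)
    have a5 := Nat.zero_le (L * r * (U.image q).card)
    nlinarith
  · let Del : V → Finset (Item V) := fun y => T2.filter fun i => Near d i y ((L + 6) * r)
    have hDel : ∀ y, (Del y).card ≤ 2 * ((L + 6) * r) + 1 := fun y =>
      card_items (fun i hi j hj => h2.uniq hd hρ (mem_filter.1 hi).1 (mem_filter.1 hj).1
        (mem_filter.1 hi).2 (mem_filter.1 hj).2) fun j _ =>
        ⟨d j.1.1 y - (L + 6) * r, fun i hi hij => by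
          have := (mem_filter.1 hi).2
          simp only [Near] at this
          rw [hij] at this
          omega⟩
    have hc3 : T2.card ≤ (T2 \ Y.biUnion Del).card + Y.card * (2 * ((L + 6) * r) + 1) :=
      card_le_card_sdiff_add_card.trans (Nat.add_le_add_left
        (card_biUnion_le.trans (sum_le_card_nsmul _ _ _ fun u _ => hDel u)) _)
    obtain ⟨T', h3, h4⟩ := exists_fam hd U q (h2.subset (sdiff_subset (t := Y.biUnion Del))) hr hr0
      asg (fun i hi => ha i (mem_sdiff.1 hi).1) (hZ.trans (filter_subset _ _)) hZs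
      fun c hc i hi _ hn => by
        obtain ⟨-, e, he, hce⟩ := mem_filter.1 (hZ hc)
        obtain ⟨-, -, -, b2⟩ := hB e he
        obtain ⟨φ, hφ, hφ'⟩ : ∃ φ ∈ En.filter Fr, d c φ ≤ L * r := by
          have t3 := hd.symm (s e) (t e)
          rcases hfree e he with hf | hf
          · refine ⟨s e, mem_filter.2 ⟨hEs e he, hf⟩, ?_⟩
            rcases hce with rfl | rfl
            · simp [hd.refl]
            · omega
          · refine ⟨t e, mem_filter.2 ⟨hEt e he, hf⟩, ?_⟩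
            rcases hce with rfl | rfl
            · omega
            · simp [hd.refl]
        obtain ⟨y, hy, hy'⟩ := hYc φ hφ
        refine (mem_sdiff.1 hi).2 (mem_biUnion.2 ⟨y, hy, mem_filter.2 ⟨(mem_sdiff.1 hi).1, ?_⟩⟩)
        have t1 := hd.tri c φ y
        have t2 := hd.tri i.1.1 c y
        have t3 := hd.tri i.1.1 y c
        have t4 := hd.symm y c
        simp only [Near] at hn ⊢
        rw [add_mul]; omega
    refine ⟨T', Z, h3, hcov, ?_⟩
    push_neg at hcase
    have a1 := Nat.mul_le_mul_left (2 * L + 14) h4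
    have a2 := Nat.mul_le_mul_left (2 * L + 14) hc
    have a3 := Nat.mul_le_mul_left (2 * L + 14) hc3
    have a4 := Nat.zero_le (r * (U.image q).card)
    have a5 := Nat.zero_le (L * r * (U.image q).card)
    have a6 : (2 * L + 14) * (Y.card * (2 * ((L + 6) * r) + 1)) ≤ (2 * L + 13) * r * Z.card := by
      have b1 : 2 * ((L + 6) * r) + 1 ≤ (2 * L + 13) * r := by nlinarith
      calc _ ≤ (2 * L + 14) * (Y.card * ((2 * L + 13) * r)) := by gcongr
        _ = (2 * L + 13) * r * ((2 * L + 14) * Y.card) := by ring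
        _ ≤ _ := by gcongr
    nlinarith

end Vale.Agent.P061
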